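import Vale.Agent.P207.N3.H387.Swap
import Vale.Agent.P207.N3.H12.PFX

/-!
# P207, line N3, P3E: from the germs of `M` and `N⁻¹` at the two ends of a closed orbit to the
hypotheses `MForm`, `NRes` of the action on jets
-/

open Set Filter Topology Metric
open scoped ContDiff

noncomputable section

namespace Vale.Agent.P207.N3.H803

open Jet H387 H790

/-- the coefficient of the inverse normal form -/
def ci (μ₁ μ₂ a : ℝ) (k : ℕ) : ℝ := -(μ₁⁻¹ * a * μ₂⁻¹ ^ k)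

lemma inv_tri_form (μ₁ μ₂ a : ℝ) (k : ℕ) (p : E2) :
    (NF.tri μ₁ μ₂ a k).inv p = !₂[μ₁⁻¹ * p 0 + ci μ₁ μ₂ a k * p 1 ^ k, μ₂⁻¹ * p 1] := by
  apply NF.ext2
  · rw [NF.inv_tri_zero]
    simp only [ci]
    change _ = μ₁⁻¹ * p 0 + -(μ₁⁻¹ * a * μ₂⁻¹ ^ k) * p 1 ^ k
    rw [mul_pow]
    ring
  · rfl

lemma res_ci {μ₁ μ₂ a : ℝ} {k : ℕ} (ok : (NF.tri μ₁ μ₂ a k).OK) (h : ci μ₁ μ₂ a k ≠ 0) :
    1 ≤ k ∧ μ₁⁻¹ = μ₂⁻¹ ^ k := by
  have ha : a ≠ 0 := by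
    rintro rfl
    exact h (by simp [ci])
  obtain ⟨h1, h2⟩ := ok.2.2 ha
  exact ⟨h1, by rw [h2, inv_pow]⟩

lemma mform_tri {H : Half} {μ₁ μ₂ a : ℝ} {k : ℕ}
    (hM : ∀ᶠ p in 𝓝 (0 : E2), H.M p = (NF.tri μ₁ μ₂ a k).inv p) :
    MForm H μ₁⁻¹ μ₂⁻¹ (ci μ₁ μ₂ a k) k := by
  filter_upwards [hM] with p hp
  rw [hp, inv_tri_form]

lemma tendsto_N (H : Half) : Tendsto H.N (𝓝 0) (𝓝 0) := by
  have h := (H.N_smooth (mem_ball_self H.r_pos)).continuousAt.tendsto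
  rwa [H.N_zero] at h

lemma nres_of_tri {H : Half} {Ni : E2 → E2} {μ₁ μ₂ a : ℝ} {k : ℕ}
    (ok : (NF.tri μ₁ μ₂ a k).OK) (hN : ∀ᶠ q in 𝓝 (0 : E2), Ni (H.N q) = q)
    (hNi : ∀ᶠ q in 𝓝 (0 : E2), Ni q = (NF.tri μ₁ μ₂ a k).inv q) : NRes H μ₁⁻¹ μ₂⁻¹ := by
  refine nres_tri (β := ci μ₁ μ₂ a k) (k := k) (fun h => (res_ci ok h).2) ?_
  filter_upwards [hN, (tendsto_N H).eventually hNi] with q h1 h2
  rw [← inv_tri_form, ← h2, h1]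

/-- the lower triangular linear map of `EqPF` -/
def lowJ (m₁ m₂ b : ℝ) : E2 →L[ℝ] E2 :=
  LinearMap.toContinuousLinearMap
    { toFun := fun q => !₂[m₁ * q 0, b * q 0 + m₂ * q 1]
      map_add' := fun x y => by
        apply NF.ext2
        · change m₁ * (x 0 + y 0) = m₁ * x 0 + m₁ * y 0
          ring
        · change b * (x 0 + y 0) + m₂ * (x 1 + y 1) = (b * x 0 + m₂ * x 1) + (b * y 0 + m₂ * y 1)
          ring
      map_smul' := fun s x => by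
        apply NF.ext2
        · change m₁ * (s * x 0) = s * (m₁ * x 0)
          ring
        · change b * (s * x 0) + m₂ * (s * x 1) = s * (b * x 0 + m₂ * x 1)
          ring }

lemma lowJ_apply (m₁ m₂ b : ℝ) (q : E2) : lowJ m₁ m₂ b q = !₂[m₁ * q 0, b * q 0 + m₂ * q 1] := rfl

/-- the upper triangular linear map -/
def upJ (m₁ m₂ b : ℝ) : E2 →L[ℝ] E2 :=
  LinearMap.toContinuousLinearMap
    { toFun := fun q => !₂[m₁ * q 0 + b * q 1, m₂ * q 1]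
      map_add' := fun x y => by
        apply NF.ext2
        · change m₁ * (x 0 + y 0) + b * (x 1 + y 1) = (m₁ * x 0 + b * x 1) + (m₁ * y 0 + b * y 1)
          ring
        · change m₂ * (x 1 + y 1) = m₂ * x 1 + m₂ * y 1
          ring
      map_smul' := fun s x => by
        apply NF.ext2
        · change m₁ * (s * x 0) + b * (s * x 1) = s * (m₁ * x 0 + b * x 1)
          ring
        · change m₂ * (s * x 1) = s * (m₂ * x 1)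
          ring }

lemma upJ_apply (m₁ m₂ b : ℝ) (q : E2) : upJ m₁ m₂ b q = !₂[m₁ * q 0 + b * q 1, m₂ * q 1] := rfl

/-- the multipliers and the weights -/
lemma tht_exp {μ₁ μ₂ : ℝ} (h1 : μ₁ ≠ 0) (h2 : μ₂ ≠ 0) (a : ℕ × ℕ) :
    |tht μ₁⁻¹ μ₂⁻¹ a| = Real.exp (-(Real.log |μ₁| * a.1 + Real.log |μ₂| * a.2)) := by
  unfold tht
  rw [abs_mul, abs_pow, abs_pow, abs_inv, abs_inv, neg_add, Real.exp_add]
  congr 1
  · rw [← Real.exp_log (abs_pos.2 h1), ← Real.exp_neg, ← Real.exp_nat_mul, Real.log_exp]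
    congr 1
    ring
  · rw [← Real.exp_log (abs_pos.2 h2), ← Real.exp_neg, ← Real.exp_nat_mul, Real.log_exp]
    congr 1
    ring

theorem feed_of {H : Half} (K : ℕ) {μ₁ μ₂ c : ℝ} {k : ℕ} (h1 : 1 < |μ₁|) (h2 : 1 < |μ₂|)
    (hres : c ≠ 0 → 1 ≤ k ∧ μ₁⁻¹ = μ₂⁻¹ ^ k) (hM : MForm H μ₁⁻¹ μ₂⁻¹ c k)
    (hN : NRes H μ₁⁻¹ μ₂⁻¹) :
    Nonempty (H578.Feed H (Real.log |μ₁|) (Real.log |μ₂|) K) := by
  have e1 : |μ₁⁻¹| = Real.exp (-Real.log |μ₁|) := by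
    rw [Real.exp_neg, Real.exp_log (by linarith), abs_inv]
  have e2 : |μ₂⁻¹| = Real.exp (-Real.log |μ₂|) := by
    rw [Real.exp_neg, Real.exp_log (by linarith), abs_inv]
  exact feed_upper K (Real.log_pos h1) (Real.log_pos h2) e1 e2 hres hM hN

/-- **the feeds of the two sides, `r > 1`** -/
theorem feed_split_X {D : PF} {μ₁ μ₂ a : ℝ} {k : ℕ} {a' : ℝ} {k' : ℕ}
    (S : H12.SplitPF D μ₁ μ₂ a k a' k') (K : ℕ) :
    Nonempty (H578.Feed D.X (Real.log |μ₁|) (Real.log |μ₂|) K) := by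
  refine feed_of K (S.ok.1.trans S.lt) S.ok.1 (res_ci S.ok)
    (mform_tri (Eventually.of_forall S.XM)) ?_
  refine nres_of_tri S.ok' (Ni := D.Y.M) ?_ (Eventually.of_forall S.YM)
  refine Eventually.of_forall fun q => ?_
  rw [S.YM, S.XN, NF.inv_fn S.ok']

theorem feed_split_Y {D : PF} {μ₁ μ₂ a : ℝ} {k : ℕ} {a' : ℝ} {k' : ℕ}
    (S : H12.SplitPF D μ₁ μ₂ a k a' k') (K : ℕ) :
    Nonempty (H578.Feed D.Y (Real.log |μ₁|) (Real.log |μ₂|) K) :=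
  feed_split_X S.symm K

/-- **the feed of the side `X`, `r = 1`** -/
theorem feed_eq_X {D : PF} {μ₁ μ₂ a : ℝ} {k : ℕ} (S : H12.EqPF D μ₁ μ₂ a k) (K : ℕ) :
    Nonempty (H578.Feed D.X (Real.log |μ₁|) (Real.log |μ₂|) K) := by
  obtain ⟨n1, n2⟩ := NF.ne_of_OK S.ok
  refine feed_of (c := -(μ₁⁻¹ * a * μ₂⁻¹)) (k := 1) K (S.ok.1.trans_le S.eq.le) S.ok.1
    (fun h => ?_) ?_ ?_
  · have ha : a ≠ 0 := by
      rintro rfl
      exact h (by simp)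
    exact ⟨le_rfl, by rw [(S.jor ha).2, pow_one]⟩
  · refine Eventually.of_forall fun p => ?_
    rw [S.XM]
    apply NF.ext2
    · change μ₁⁻¹ * (p 0 - a * (μ₂⁻¹ * p 1)) = μ₁⁻¹ * p 0 + -(μ₁⁻¹ * a * μ₂⁻¹) * p 1 ^ 1
      ring
    · rfl
  · refine nres_linear (lowJ μ₁⁻¹ μ₂⁻¹ (-(μ₂⁻¹ * a * μ₁⁻¹))) ?_
    refine Eventually.of_forall fun q => ?_
    rw [S.XN, lowJ_apply]
    apply NF.ext2
    · change μ₁⁻¹ * (μ₁ * q 0) = q 0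
      field_simp
    · change -(μ₂⁻¹ * a * μ₁⁻¹) * (μ₁ * q 0) + μ₂⁻¹ * (a * q 0 + μ₂ * q 1) = q 1
      field_simp
      ring

/-- the side `Y`, `r = 1`, diagonal -/
theorem feed_eq_Y0 {D : PF} {μ₁ μ₂ : ℝ} {k : ℕ} (S : H12.EqPF D μ₁ μ₂ 0 k) (K : ℕ) :
    Nonempty (H578.Feed D.Y (Real.log |μ₁|) (Real.log |μ₂|) K) := by
  obtain ⟨n1, n2⟩ := NF.ne_of_OK S.ok
  refine feed_of (c := 0) (k := 1) K (S.ok.1.trans_le S.eq.le) S.ok.1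
    (fun h => absurd rfl h) ?_ ?_
  · refine Eventually.of_forall fun p => ?_
    rw [S.YM]
    apply NF.ext2
    · change μ₁⁻¹ * p 0 = μ₁⁻¹ * p 0 + 0 * p 1 ^ 1
      ring
    · change μ₂⁻¹ * (p 1 - 0 * (μ₁⁻¹ * p 0)) = μ₂⁻¹ * p 1
      ring
  · refine nres_linear (upJ μ₁⁻¹ μ₂⁻¹ 0) ?_
    refine Eventually.of_forall fun q => ?_
    rw [S.YN, upJ_apply]
    apply NF.ext2
    · change μ₁⁻¹ * (μ₁ * q 0 + 0 * q 1) + 0 * (μ₂ * q 1) = q 0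
      field_simp
      ring
    · change μ₂⁻¹ * (μ₂ * q 1) = q 1
      field_simp

/-- **the feed of the side `Y`, `r = 1`** -/
theorem feed_eq_Y {D : PF} {μ₁ μ₂ a : ℝ} {k : ℕ} (S : H12.EqPF D μ₁ μ₂ a k) (K : ℕ) :
    Nonempty (H578.Feed D.Y (Real.log |μ₁|) (Real.log |μ₂|) K) := by
  by_cases ha : a = 0
  · subst ha
    exact feed_eq_Y0 S K
  obtain ⟨n1, n2⟩ := NF.ne_of_OK S.ok
  obtain ⟨-, hμ⟩ := S.jor ha
  rw [← hμ]
  have h1 : 1 < |μ₁| := S.ok.1.trans_le S.eq.le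
  have e1 : |μ₁⁻¹| = Real.exp (-Real.log |μ₁|) := by
    rw [Real.exp_neg, Real.exp_log (by linarith), abs_inv]
  refine feed_lower K (Real.log_pos h1) e1 (c := -(μ₁⁻¹ * a * μ₁⁻¹)) ?_
    (upJ μ₁⁻¹ μ₁⁻¹ (-(μ₁⁻¹ * a * μ₁⁻¹))) ?_
  · refine Eventually.of_forall fun p => ?_
    rw [S.YM, ← hμ]
    apply NF.ext2
    · rfl
    · change μ₁⁻¹ * (p 1 - a * (μ₁⁻¹ * p 0)) = -(μ₁⁻¹ * a * μ₁⁻¹) * p 0 + μ₁⁻¹ * p 1
      ring
  · refine Eventually.of_forall fun q => ?_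
    rw [S.YN, ← hμ, upJ_apply]
    apply NF.ext2
    · change μ₁⁻¹ * (μ₁ * q 0 + a * q 1) + -(μ₁⁻¹ * a * μ₁⁻¹) * (μ₁ * q 1) = q 0
      field_simp
      ring
    · change μ₁⁻¹ * (μ₁ * q 1) = q 1
      field_simp

end Vale.Agent.P207.N3.H803
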