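import Vale.Agent.P207.N3.H862.JC

/-!
N3-P1d (helper803): the equation `u' = g (φ_s x) u` on the unstable manifold: monotonicity,
contraction in the past, existence on `[0, t]`.
-/

open Set Filter Topology Metric
open scoped ContDiff

namespace Vale.Agent.P207.N3.H803

section mono

variable {K : Type*} [TopologicalSpace K] [CompactSpace K] {E : Type} [NormedAddCommGroup E]
  [InnerProductSpace ℝ E]

/-- strong monotonicity of `g x` near `0`, uniformly in `x` -/
theorem exists_monotone (g : K → E → E) {ρ χ χ' : ℝ} (hρ : 0 < ρ) (hg : JC g (univ ×ˢ ball 0 ρ))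
    (hU : ∀ x a, χ * ‖a‖ ^ 2 ≤ inner ℝ (fderiv ℝ (g x) 0 a) a) (hχ : χ' < χ) :
    ∃ ε, 0 < ε ∧ ε < ρ ∧ ∀ x, ∀ u ∈ closedBall (0 : E) ε, ∀ v ∈ closedBall (0 : E) ε,
      χ' * ‖u - v‖ ^ 2 ≤ inner ℝ (g x u - g x v) (u - v) := by
  have h1 : ∀ᶠ u in 𝓝 (0 : E), ∀ x ∈ (univ : Set K),
      ‖fderiv ℝ (g x) u - fderiv ℝ (g x) 0‖ < χ - χ' := by
    refine isCompact_univ.eventually_forall_of_forall_eventually fun x _ => ?_
    have hc : ContinuousAt (fun p : E × K => fderiv ℝ (g p.2) p.1 - fderiv ℝ (g p.2) 0)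
        ((0 : E), x) := by
      have h2 := hg.fderiv.continuousOn
      have hm : ∀ p : E × K, p.1 ∈ ball (0 : E) ρ → ((p.2, p.1) : K × E) ∈
          (univ ×ˢ ball (0 : E) ρ) := fun p hp => ⟨mem_univ _, hp⟩
      have h0 : (0 : E) ∈ ball (0 : E) ρ := mem_ball_self hρ
      have h3 : ContinuousAt (fun p : E × K => fderiv ℝ (g p.2) p.1) ((0 : E), x) := by
        have := (h2.continuousAt (hg.isOpen.mem_nhds (hm ((0 : E), x) h0)))
        exact ContinuousAt.comp (f := fun p : E × K => ((p.2, p.1) : K × E)) this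
          (by fun_prop)
      have h4 : ContinuousAt (fun p : E × K => fderiv ℝ (g p.2) 0) ((0 : E), x) := by
        have := (h2.continuousAt (hg.isOpen.mem_nhds (hm ((0 : E), x) h0)))
        exact ContinuousAt.comp (f := fun p : E × K => ((p.2, (0 : E)) : K × E)) this
          (by fun_prop)
      exact h3.sub h4
    have h5 : ‖fderiv ℝ (g x) (0 : E) - fderiv ℝ (g x) 0‖ < χ - χ' := by
      rw [sub_self, norm_zero]; linarith
    exact hc.norm.eventually (gt_mem_nhds h5)
  obtain ⟨δ, hδ, h2⟩ := Metric.eventually_nhds_iff_ball.1 h1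
  refine ⟨min (δ / 2) (ρ / 2), by positivity, (min_le_right _ _).trans_lt (by linarith), ?_⟩
  set ε := min (δ / 2) (ρ / 2) with hε
  have hεδ : ε < δ := (min_le_left _ _).trans_lt (by linarith)
  have hερ : ε < ρ := (min_le_right _ _).trans_lt (by linarith)
  intro x u hu v hv
  have hseg : ∀ s ∈ Icc (0 : ℝ) 1, v + s • (u - v) ∈ closedBall (0 : E) ε := by
    intro s hs
    have := (convex_closedBall (0 : E) ε).add_smul_sub_mem hv hu hs
    exact this
  have hd : ∀ s ∈ Icc (0 : ℝ) 1, HasDerivAt (fun s : ℝ => inner ℝ (g x (v + s • (u - v))) (u - v))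
      (inner ℝ (fderiv ℝ (g x) (v + s • (u - v)) (u - v)) (u - v)) s := by
    intro s hs
    have hb : v + s • (u - v) ∈ ball (0 : E) ρ := closedBall_subset_ball hερ (hseg s hs)
    have h3 := (hg.hasFDerivAt (p := (x, v + s • (u - v))) ⟨mem_univ _, hb⟩)
    have h4 : HasDerivAt (fun s : ℝ => v + s • (u - v)) (u - v) s := by
      have := ((hasDerivAt_id s).smul_const (u - v)).const_add v
      simpa using this
    have h5 := h3.comp_hasDerivAt s h4
    have h6 := h5.inner ℝ (hasDerivAt_const s (u - v))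
    simpa using h6
  have hlow : ∀ s ∈ Icc (0 : ℝ) 1,
      χ' * ‖u - v‖ ^ 2 ≤ inner ℝ (fderiv ℝ (g x) (v + s • (u - v)) (u - v)) (u - v) := by
    intro s hs
    have hb : v + s • (u - v) ∈ ball (0 : E) δ := closedBall_subset_ball hεδ (hseg s hs)
    have h3 := h2 _ hb x (mem_univ _)
    have h4 := hU x (u - v)
    have h5 : |inner ℝ ((fderiv ℝ (g x) (v + s • (u - v)) - fderiv ℝ (g x) 0) (u - v)) (u - v)|
        ≤ (χ - χ') * ‖u - v‖ ^ 2 := by
      refine (abs_real_inner_le_norm _ _).trans ?_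
      have h6 := (fderiv ℝ (g x) (v + s • (u - v)) - fderiv ℝ (g x) 0).le_opNorm (u - v)
      calc ‖(fderiv ℝ (g x) (v + s • (u - v)) - fderiv ℝ (g x) 0) (u - v)‖ * ‖u - v‖
          ≤ (‖fderiv ℝ (g x) (v + s • (u - v)) - fderiv ℝ (g x) 0‖ * ‖u - v‖) * ‖u - v‖ := by
            gcongr
        _ ≤ ((χ - χ') * ‖u - v‖) * ‖u - v‖ := by gcongr
        _ = _ := by ring
    have h7 := (abs_le.1 h5).1
    rw [_root_.sub_apply, inner_sub_left] at h7
    linarith
  have hmvt := exists_deriv_eq_slope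
    (f := fun s : ℝ => inner ℝ (g x (v + s • (u - v))) (u - v)) (a := 0) (b := 1) zero_lt_one
    (fun s hs => (hd s hs).continuousAt.continuousWithinAt)
    (fun s hs => (hd s (Ioo_subset_Icc_self hs)).differentiableAt.differentiableWithinAt)
  obtain ⟨s, hs, h⟩ := hmvt
  rw [(hd s (Ioo_subset_Icc_self hs)).deriv] at h
  have h8 := hlow s (Ioo_subset_Icc_self hs)
  rw [h] at h8
  simpa [inner_sub_left] using h8

end mono

section contraction

variable {E : Type*} [NormedAddCommGroup E] [InnerProductSpace ℝ E]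

/-- two solutions of a monotone equation contract in the past -/
theorem contraction {f : ℝ → E → E} {χ t ε : ℝ} (ht : 0 ≤ t)
    (hm : ∀ s ∈ Icc 0 t, ∀ u ∈ closedBall (0 : E) ε, ∀ v ∈ closedBall (0 : E) ε,
      χ * ‖u - v‖ ^ 2 ≤ inner ℝ (f s u - f s v) (u - v))
    {u v : ℝ → E} (hu : ∀ s ∈ Icc 0 t, HasDerivWithinAt u (f s (u s)) (Icc 0 t) s)
    (hv : ∀ s ∈ Icc 0 t, HasDerivWithinAt v (f s (v s)) (Icc 0 t) s)
    (hu' : ∀ s ∈ Icc 0 t, u s ∈ closedBall (0 : E) ε)
    (hv' : ∀ s ∈ Icc 0 t, v s ∈ closedBall (0 : E) ε) :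
    ∀ s ∈ Icc 0 t, ‖u s - v s‖ ≤ Real.exp (-χ * (t - s)) * ‖u t - v t‖ := by
  set h : ℝ → ℝ := fun s => ‖u s - v s‖ ^ 2 * Real.exp (-(2 * χ * s)) with hh
  have hd : ∀ s ∈ Ioo 0 t, HasDerivAt h (2 * inner ℝ (u s - v s) (f s (u s) - f s (v s)) *
      Real.exp (-(2 * χ * s)) + ‖u s - v s‖ ^ 2 * (Real.exp (-(2 * χ * s)) * (-(2 * χ)))) s := by
    intro s hs
    have hs' := Ioo_subset_Icc_self hs
    have hn : Icc 0 t ∈ 𝓝 s := Icc_mem_nhds hs.1 hs.2
    have h1 := ((hu s hs').hasDerivAt hn).sub ((hv s hs').hasDerivAt hn)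
    have h2 := h1.norm_sq
    have h3 : HasDerivAt (fun s : ℝ => Real.exp (-(2 * χ * s)))
        (Real.exp (-(2 * χ * s)) * (-(2 * χ))) s := by
      have := ((hasDerivAt_id s).const_mul (2 * χ)).neg.exp
      simpa using this
    exact h2.mul h3
  have hc : ContinuousOn h (Icc 0 t) := by
    have h1 : ContinuousOn u (Icc 0 t) := fun s hs => (hu s hs).continuousWithinAt
    have h2 : ContinuousOn v (Icc 0 t) := fun s hs => (hv s hs).continuousWithinAt
    exact ((h1.sub h2).norm.pow 2).mul (by fun_prop)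
  have hmono : MonotoneOn h (Icc 0 t) := by
    refine monotoneOn_of_deriv_nonneg (convex_Icc 0 t) hc ?_ ?_
    · intro s hs
      rw [interior_Icc] at hs
      exact (hd s hs).differentiableAt.differentiableWithinAt
    · intro s hs
      rw [interior_Icc] at hs
      rw [(hd s hs).deriv]
      have hs' := Ioo_subset_Icc_self hs
      have := hm s hs' (u s) (hu' s hs') (v s) (hv' s hs')
      rw [real_inner_comm] at this
      have he := Real.exp_pos (-(2 * χ * s))
      nlinarith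
  intro s hs
  have h1 := hmono hs (right_mem_Icc.2 ht) hs.2
  simp only [hh] at h1
  have h2 : ‖u s - v s‖ ^ 2 ≤ (Real.exp (-χ * (t - s)) * ‖u t - v t‖) ^ 2 := by
    have he := Real.exp_pos (2 * χ * s)
    have h3 : ‖u s - v s‖ ^ 2 = ‖u s - v s‖ ^ 2 * Real.exp (-(2 * χ * s)) *
        Real.exp (2 * χ * s) := by
      rw [mul_assoc, ← Real.exp_add]; simp
    have h4 : (Real.exp (-χ * (t - s)) * ‖u t - v t‖) ^ 2
        = ‖u t - v t‖ ^ 2 * Real.exp (-(2 * χ * t)) * Real.exp (2 * χ * s) := by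
      rw [mul_assoc, ← Real.exp_add, mul_pow, ← Real.exp_nat_mul, mul_comm]
      congr 2
      push_cast
      ring
    rw [h3, h4]
    gcongr
  exact (abs_le_of_sq_le_sq' h2 (by positivity)).2

end contraction

section exist

variable {K : Type*} [TopologicalSpace K] [CompactSpace K] {E : Type} [NormedAddCommGroup E]
  [InnerProductSpace ℝ E] [FiniteDimensional ℝ E]

/-- EXISTENCE of the backward solution, with contraction. -/
theorem exists_backward (φ : ℝ → K → K) (hφ : Continuous fun p : ℝ × K => φ p.1 p.2)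
    (g : K → E → E) {ρ χ ε : ℝ} (hρ : ε < ρ) (hε : 0 < ε) (hχ : 0 ≤ χ)
    (hg : JC g (univ ×ˢ ball 0 ρ)) (h0 : ∀ x, g x 0 = 0)
    (hm : ∀ x, ∀ u ∈ closedBall (0 : E) ε, ∀ v ∈ closedBall (0 : E) ε,
      χ * ‖u - v‖ ^ 2 ≤ inner ℝ (g x u - g x v) (u - v)) :
    ∀ x, ∀ t ≥ 0, ∀ u₀ ∈ closedBall (0 : E) (ε / 2), ∃ u : ℝ → E, u t = u₀ ∧
      (∀ s ∈ Icc 0 t, HasDerivWithinAt u (g (φ s x) (u s)) (Icc 0 t) s) ∧
      ∀ s ∈ Icc 0 t, ‖u s‖ ≤ Real.exp (-χ * (t - s)) * ‖u₀‖ := by
  classical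
  -- cutoff
  set b : ContDiffBump (0 : E) := ⟨ε / 2, 3 * ε / 4, by positivity, by linarith⟩ with hb
  have hbc : ContDiff ℝ ∞ (b : E → ℝ) := b.contDiff
  set G : K → E → E := fun x u => b u • g x u with hG
  have hb0 : ∀ u, u ∉ ball (0 : E) ε → b u = 0 := by
    intro u hu
    refine b.zero_of_le_dist ?_
    rw [mem_ball, not_lt] at hu
    show 3 * ε / 4 ≤ _
    linarith
  have hb1 : ∀ u ∈ closedBall (0 : E) (ε / 2), b u = 1 := fun u hu => b.one_of_mem_closedBall hu
  have hGJ : JC G univ := by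
    refine JC.of_local isOpen_univ fun p _ => ?_
    by_cases hp : p.2 ∈ ball (0 : E) ρ
    · exact ⟨univ ×ˢ ball 0 ρ, ⟨mem_univ _, hp⟩, (JC.of_contDiff hbc hg.isOpen).smul hg⟩
    · refine ⟨univ ×ˢ (closedBall (0 : E) (3 * ε / 4))ᶜ, ⟨mem_univ _, fun h => hp ?_⟩, ?_⟩
      · exact closedBall_subset_ball (by linarith) h
      · have ho : IsOpen ((univ : Set K) ×ˢ (closedBall (0 : E) (3 * ε / 4))ᶜ) :=
          isOpen_univ.prod isClosed_closedBall.isOpen_compl
        refine (JC.const ho (0 : E)).congr fun q hq => ?_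
        have : b q.2 = 0 := by
          refine b.zero_of_le_dist ?_
          have h2 := hq.2
          rw [mem_compl_iff, mem_closedBall, not_le] at h2
          exact h2.le
        simp only [hG, this, zero_smul]
  have hGmem : ∀ p ∈ (univ : Set K) ×ˢ closedBall (0 : E) ε, p ∈ (univ : Set (K × E)) :=
    fun _ _ => mem_univ _
  have hcpt : IsCompact ((univ : Set K) ×ˢ closedBall (0 : E) ε) :=
    isCompact_univ.prod (isCompact_closedBall _ _)
  have hGcont : Continuous fun p : K × E => G p.1 p.2 := continuousOn_univ.1 hGJ.continuousOn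
  have hDcont : Continuous fun p : K × E => fderiv ℝ (G p.1) p.2 :=
    continuousOn_univ.1 hGJ.fderiv.continuousOn
  obtain ⟨C, hC⟩ := hcpt.exists_bound_of_continuousOn hGcont.continuousOn
  obtain ⟨D, hD⟩ := hcpt.exists_bound_of_continuousOn hDcont.continuousOn
  have hGz : ∀ x, ∀ u, u ∉ ball (0 : E) ε → G x u = 0 := fun x u hu => by
    simp only [hG, hb0 u hu, zero_smul]
  have hC' : ∀ x u, ‖G x u‖ ≤ |C| := by
    intro x u
    by_cases hu : u ∈ closedBall (0 : E) ε
    · exact (hC (x, u) ⟨mem_univ _, hu⟩).trans (le_abs_self _)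
    · rw [hGz x u fun h => hu (ball_subset_closedBall h), norm_zero]
      exact abs_nonneg _
  have hD' : ∀ x u, ‖fderiv ℝ (G x) u‖ ≤ |D| := by
    intro x u
    by_cases hu : u ∈ closedBall (0 : E) ε
    · exact (hD (x, u) ⟨mem_univ _, hu⟩).trans (le_abs_self _)
    · have : G x =ᶠ[𝓝 u] fun _ => 0 := by
        filter_upwards [isClosed_closedBall.isOpen_compl.mem_nhds hu] with v hv
        exact hGz x v fun h => hv (ball_subset_closedBall h)
      rw [this.fderiv_eq]
      simp
  have hlip : ∀ x, LipschitzWith (Real.toNNReal |D|) (G x) := by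
    intro x
    refine lipschitzWith_of_nnnorm_fderiv_le (𝕜 := ℝ)
      (fun u => hGJ.differentiableAt (p := (x, u)) (mem_univ _)) fun u => ?_
    rw [← NNReal.coe_le_coe, coe_nnnorm, Real.coe_toNNReal _ (abs_nonneg _)]
    exact hD' x u
  -- nonnegative radial component
  have hrad : ∀ x u, 0 ≤ inner ℝ (G x u) u := by
    intro x u
    by_cases hu : u ∈ closedBall (0 : E) ε
    · have h1 := hm x u hu 0 (mem_closedBall_self hε.le)
      rw [h0, sub_zero, sub_zero] at h1
      simp only [hG, real_inner_smul_left]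
      exact mul_nonneg b.nonneg ((by positivity : (0 : ℝ) ≤ χ * ‖u‖ ^ 2).trans h1)
    · rw [hGz x u fun h => hu (ball_subset_closedBall h), inner_zero_left]
  intro x t ht u₀ hu₀
  set f : ℝ → E → E := fun s u => G (φ s x) u with hf
  have hpl : IsPicardLindelof f (tmin := 0) (tmax := t) ⟨t, ht, le_rfl⟩ u₀
      (Real.toNNReal (|C| * t)) 0 (Real.toNNReal |C|) (Real.toNNReal |D|) := by
    refine ⟨fun s _ => (hlip _).lipschitzOnWith, fun u _ => ?_, fun s _ u _ => ?_, ?_⟩
    · have : Continuous fun s : ℝ => G (φ s x) u :=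
        hGcont.comp (f := fun s : ℝ => ((φ s x, u) : K × E))
          ((hφ.comp (by fun_prop : Continuous fun s : ℝ => (s, x))).prodMk continuous_const)
      exact this.continuousOn
    · rw [Real.coe_toNNReal _ (abs_nonneg _)]
      exact hC' _ _
    · rw [Real.coe_toNNReal _ (abs_nonneg _), Real.coe_toNNReal _ (by positivity)]
      simp [ht]
  obtain ⟨u, hut, hud⟩ := hpl.exists_eq_forall_mem_Icc_hasDerivWithinAt₀
  simp only at hut
  have hc : ContinuousOn u (Icc 0 t) := fun s hs => (hud s hs).continuousWithinAt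
  -- the norm is monotone
  have hmono : MonotoneOn (fun s => ‖u s‖ ^ 2) (Icc 0 t) := by
    have hd : ∀ s ∈ Ioo 0 t, HasDerivAt (fun s => ‖u s‖ ^ 2) (2 * inner ℝ (u s) (f s (u s))) s :=
      fun s hs => ((hud s (Ioo_subset_Icc_self hs)).hasDerivAt
        (Icc_mem_nhds hs.1 hs.2)).norm_sq
    refine monotoneOn_of_deriv_nonneg (convex_Icc 0 t) (hc.norm.pow 2) ?_ ?_
    · intro s hs
      rw [interior_Icc] at hs
      exact (hd s hs).differentiableAt.differentiableWithinAt
    · intro s hs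
      rw [interior_Icc] at hs
      rw [(hd s hs).deriv, real_inner_comm]
      have := hrad (φ s x) (u s)
      simp only [hf]
      linarith
  have hin : ∀ s ∈ Icc 0 t, u s ∈ closedBall (0 : E) (ε / 2) := by
    intro s hs
    have h1 := hmono hs (right_mem_Icc.2 ht) hs.2
    simp only [hut] at h1
    rw [mem_closedBall_zero_iff] at hu₀ ⊢
    exact ((abs_le_of_sq_le_sq' h1 (norm_nonneg _)).2).trans hu₀
  have hsub : closedBall (0 : E) (ε / 2) ⊆ closedBall 0 ε := closedBall_subset_closedBall (by linarith)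
  have hud' : ∀ s ∈ Icc 0 t, HasDerivWithinAt u (g (φ s x) (u s)) (Icc 0 t) s := by
    intro s hs
    have h1 := hud s hs
    have h2 : f s (u s) = g (φ s x) (u s) := by
      simp only [hf, hG, hb1 _ (hin s hs), one_smul]
    rwa [h2] at h1
  refine ⟨u, hut, hud', fun s hs => ?_⟩
  have h3 := contraction (f := fun s u => g (φ s x) u) (χ := χ) (ε := ε) ht
    (fun s _ => hm (φ s x)) hud' (v := fun _ => 0)
    (fun s _ => by
      show HasDerivWithinAt (fun _ : ℝ => (0 : E)) (g (φ s x) 0) (Icc 0 t) s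
      rw [h0]
      exact hasDerivWithinAt_const _ _ _)
    (fun s hs => hsub (hin s hs)) (fun s _ => mem_closedBall_self hε.le) s hs
  simpa [hut] using h3

end exist

end Vale.Agent.P207.N3.H803
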