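import Vale.Agent.P207.N3.H545.Chain

/-!
N3-P1d (helper803): contraction of all orders, with the same rate, for a cocycle of contractions.
-/

set_option maxSynthPendingDepth 3

open Set Filter Topology Metric
open scoped ContDiff

namespace Vale.Agent.P207.N3.H803

universe u

/-- chain rule estimate without the term of order zero -/
theorem top_order' (E : Type u) [NormedAddCommGroup E] [NormedSpace ℝ E] (k : ℕ) (hk : 1 ≤ k)
    (a : ℝ) (ha : 0 ≤ a) : ∃ K : ℝ, 0 ≤ K ∧ ∀ (Z : E → E) (τ : E → E) (x : E),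
      ContDiffAt ℝ k τ x → ContDiffAt ℝ k Z (τ x) →
      (∀ i, 1 ≤ i → i ≤ k → ‖iteratedFDeriv ℝ i τ x‖ ≤ a) →
      ‖iteratedFDeriv ℝ k (fun y => Z (τ y)) x‖ ≤
        ‖fderiv ℝ τ x‖ ^ k * ‖iteratedFDeriv ℝ k Z (τ x)‖ +
          K * ∑ j ∈ Finset.Ico 1 k, ‖iteratedFDeriv ℝ j Z (τ x)‖ := by
  obtain ⟨K, hK, H⟩ := H545.exists_top_order E E k (max a 1) (ha.trans (le_max_left _ _))
  refine ⟨K, hK, fun Z τ x hτ hZ hb => ?_⟩
  set c : E := Z (τ x) with hc
  have hcst : ∀ (f : E → E) (y : E) (j : ℕ), 1 ≤ j → ContDiffAt ℝ j f y →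
      iteratedFDeriv ℝ j (fun z => f z - c) y = iteratedFDeriv ℝ j f y := by
    intro f y j hj hf
    have h1 : (fun z => f z - c) = f - fun _ => c := rfl
    rw [h1, iteratedFDeriv_sub_apply hf contDiffAt_const]
    rw [iteratedFDeriv_const_of_ne (by omega)]
    simp
  have h := H E E (fun _ => ContinuousLinearMap.id ℝ E) (fun z => Z z - c) τ x
    contDiffAt_const hτ (hZ.sub contDiffAt_const) ?_ (fun i h1 h2 => (hb i h1 h2).trans
      (le_max_left _ _))
  · simp only [ContinuousLinearMap.coe_id', id_eq] at h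
    have e1 : iteratedFDeriv ℝ k (fun y => Z (τ y) - c) x
        = iteratedFDeriv ℝ k (fun y => Z (τ y)) x :=
      hcst (fun y => Z (τ y)) x k hk (hZ.comp x hτ)
    have e2 : iteratedFDeriv ℝ k (fun z => Z z - c) (τ x) = iteratedFDeriv ℝ k Z (τ x) :=
      hcst Z (τ x) k hk hZ
    rw [e1, e2] at h
    refine h.trans ?_
    have e3 : ∑ j ∈ Finset.range k, ‖iteratedFDeriv ℝ j (fun z => Z z - c) (τ x)‖
        = ∑ j ∈ Finset.Ico 1 k, ‖iteratedFDeriv ℝ j Z (τ x)‖ := by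
      rw [Finset.range_eq_Ico, Finset.sum_eq_sum_Ico_succ_bot (by omega)]
      rw [norm_iteratedFDeriv_zero]
      simp only [hc, sub_self, norm_zero, zero_add]
      refine Finset.sum_congr rfl fun j hj => ?_
      have hj' := Finset.mem_Ico.mp hj
      rw [← hc, hcst Z (τ x) j hj'.1 (hZ.of_le (by exact_mod_cast hj'.2.le))]
    rw [e3]
    have e4 : ‖(ContinuousLinearMap.id ℝ E)‖ ≤ 1 := ContinuousLinearMap.norm_id_le
    gcongr
    calc ‖(ContinuousLinearMap.id ℝ E)‖ * ‖fderiv ℝ τ x‖ ^ k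
        ≤ 1 * ‖fderiv ℝ τ x‖ ^ k := by gcongr
      _ = _ := one_mul _
  · intro i _
    rcases Nat.eq_zero_or_pos i with rfl | hi
    · rw [norm_iteratedFDeriv_zero]
      exact ContinuousLinearMap.norm_id_le.trans (le_max_right _ _)
    · rw [iteratedFDeriv_const_of_ne (by omega)]
      simp only [Pi.zero_apply, norm_zero]
      exact zero_le_one.trans (le_max_right _ _)

/-- CONTRACTION OF ALL ORDERS. `T t x : E → E`, `t ≥ t₁`, a cocycle over a flow (of self maps of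
the ball of radius `R`), contracting to first order like `e^{-χ t}`, with uniform bounds of all
derivatives for bounded times. Then all derivatives decay like `e^{-χ t}`. -/
theorem contract_all {X : Type*} {E : Type u} [NormedAddCommGroup E] [NormedSpace ℝ E]
    (φ : ℝ → X → X) (T : ℝ → X → E → E) {R t₁ χ : ℝ} (ht₁ : 0 < t₁) (hχ : 0 < χ)
    (hsm : ∀ x, ∀ t ≥ t₁, ContDiffOn ℝ ∞ (T t x) (ball 0 R))
    (hmap : ∀ x, ∀ t ≥ t₁, MapsTo (T t x) (ball 0 R) (ball 0 R))
    (hco : ∀ x, ∀ s ≥ t₁, ∀ t ≥ t₁, ∀ u ∈ ball (0 : E) R,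
      T (s + t) x u = T t x (T s (φ t x) u))
    (h1 : ∃ C, ∀ x, ∀ t ≥ t₁, ∀ u ∈ ball (0 : E) R, ‖fderiv ℝ (T t x) u‖ ≤ C * Real.exp (-χ * t))
    (hb : ∀ (k : ℕ) (S : ℝ), ∃ C, ∀ x, ∀ t ∈ Icc t₁ S, ∀ u ∈ ball (0 : E) R,
      ‖iteratedFDeriv ℝ k (T t x) u‖ ≤ C) :
    ∀ k : ℕ, 1 ≤ k → ∃ C, ∀ x, ∀ t ≥ t₁, ∀ u ∈ ball (0 : E) R,
      ‖iteratedFDeriv ℝ k (T t x) u‖ ≤ C * Real.exp (-χ * t) := by
  obtain ⟨C₁, hC₁⟩ := h1
  set D₁ : ℝ := max C₁ 1 with hD₁
  have hD₁1 : 1 ≤ D₁ := le_max_right _ _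
  have hD₁0 : 0 < D₁ := zero_lt_one.trans_le hD₁1
  have hC₁' : ∀ x, ∀ t ≥ t₁, ∀ u ∈ ball (0 : E) R,
      ‖fderiv ℝ (T t x) u‖ ≤ D₁ * Real.exp (-χ * t) := fun x t ht u hu =>
    (hC₁ x t ht u hu).trans (by gcongr; exact le_max_left _ _)
  intro k
  induction k using Nat.strong_induction_on with
  | _ k ih =>
  intro hk
  rcases Nat.lt_or_ge k 2 with hk2 | hk2
  · have hk1 : k = 1 := by omega
    subst hk1
    refine ⟨D₁, fun x t ht u hu => ?_⟩
    have := hC₁' x t ht u hu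
    rwa [← norm_iteratedFDeriv_one] at this
  -- constants of lower order
  choose Cl hCl using fun (j : ℕ) (hj : j < k ∧ 1 ≤ j) => ih j hj.1 hj.2
  -- the step
  obtain ⟨S, hSt, hS⟩ : ∃ S ≥ t₁, D₁ ^ 2 * Real.exp (-χ * S) ≤ 1 / 2 := by
    have hlim : Tendsto (fun S : ℝ => D₁ ^ 2 * Real.exp (-χ * S)) atTop (𝓝 (D₁ ^ 2 * 0)) := by
      refine Tendsto.const_mul _ (Real.tendsto_exp_atBot.comp ?_)
      exact Tendsto.const_mul_atTop_of_neg (by linarith) tendsto_id
    rw [mul_zero] at hlim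
    have := (hlim.eventually (ge_mem_nhds (by norm_num : (0 : ℝ) < 1 / 2))).and
      (eventually_ge_atTop t₁)
    obtain ⟨S, hS⟩ := this.exists
    exact ⟨S, hS.2, hS.1⟩
  have hS0 : 0 < S := ht₁.trans_le hSt
  have hDS : D₁ * Real.exp (-χ * S) ≤ 1 := by
    have : D₁ * Real.exp (-χ * S) ≤ D₁ ^ 2 * Real.exp (-χ * S) := by
      gcongr
      nlinarith
    linarith
  -- bounds for the step map
  choose Cb hCb using fun j : ℕ => hb j S
  set a : ℝ := ∑ j ∈ Finset.range (k + 1), |Cb j| with ha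
  have ha0 : 0 ≤ a := Finset.sum_nonneg fun _ _ => abs_nonneg _
  have hCb' : ∀ j ≤ k, ∀ x, ∀ u ∈ ball (0 : E) R, ‖iteratedFDeriv ℝ j (T S x) u‖ ≤ a := by
    intro j hj x u hu
    refine (hCb j x S ⟨hSt, le_rfl⟩ u hu).trans ((le_abs_self _).trans ?_)
    exact Finset.single_le_sum (f := fun j => |Cb j|) (fun _ _ => abs_nonneg _)
      (Finset.mem_range.mpr (by omega))
  obtain ⟨K, hK0, hK⟩ := top_order' E k hk a ha0
  obtain ⟨C₂, hC₂⟩ := hb k (2 * S)
  set P : ℝ := K * ∑ j ∈ (Finset.Ico 1 k).attach,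
    |Cl j.1 ⟨(Finset.mem_Ico.mp j.2).2, (Finset.mem_Ico.mp j.2).1⟩| with hP
  have hP0 : 0 ≤ P := mul_nonneg hK0 (Finset.sum_nonneg fun _ _ => abs_nonneg _)
  set Q : ℝ := max (|C₂| * Real.exp (χ * (2 * S))) (2 * (P * Real.exp (χ * S))) with hQ
  have hQ0 : 0 ≤ Q := le_trans (by positivity) (le_max_left _ _)
  -- induction on the time
  have main : ∀ n : ℕ, ∀ x, ∀ t, t₁ ≤ t → t ≤ (n + 2 : ℕ) * S → ∀ u ∈ ball (0 : E) R,
      ‖iteratedFDeriv ℝ k (T t x) u‖ ≤ Q * Real.exp (-χ * t) := by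
    intro n
    induction n with
    | zero =>
      intro x t ht htS u hu
      have htS' : t ≤ 2 * S := by simpa using htS
      refine (hC₂ x t ⟨ht, htS'⟩ u hu).trans ((le_abs_self _).trans ?_)
      calc |C₂| = |C₂| * Real.exp (χ * t) * Real.exp (-χ * t) := by
            rw [mul_assoc, ← Real.exp_add]; simp
        _ ≤ Q * Real.exp (-χ * t) := by
            gcongr
            refine le_trans ?_ (le_max_left _ _)
            gcongr
    | succ n ihn =>
      intro x t ht htS u hu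
      rcases le_or_gt t ((n + 2 : ℕ) * S) with hle | hgt
      · exact ihn x t ht hle u hu
      have hbig : 2 * S ≤ t := by
        have : (2 : ℝ) * S ≤ ((n + 2 : ℕ) : ℝ) * S := by
          gcongr
          push_cast
          have : (0 : ℝ) ≤ n := Nat.cast_nonneg n
          linarith
        linarith
      set t' : ℝ := t - S with ht'
      have ht'1 : t₁ ≤ t' := by rw [ht']; linarith
      have ht'2 : t' ≤ (n + 2 : ℕ) * S := by
        rw [ht']
        push_cast at htS ⊢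
        linarith
      have heq : ∀ v ∈ ball (0 : E) R, T t x v = T t' x (T S (φ t' x) v) := by
        intro v hv
        have := hco x S hSt t' ht'1 v hv
        rwa [ht', add_sub_cancel] at this
      have hev : T t x =ᶠ[𝓝 u] fun v => T t' x (T S (φ t' x) v) :=
        Filter.eventuallyEq_of_mem (isOpen_ball.mem_nhds hu) heq
      rw [hev.iteratedFDeriv ℝ k |>.eq_of_nhds]
      have huu : T S (φ t' x) u ∈ ball (0 : E) R := hmap _ _ hSt hu
      have hτ : ContDiffAt ℝ k (T S (φ t' x)) u :=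
        ((hsm _ _ hSt).contDiffAt (isOpen_ball.mem_nhds hu)).of_le (by exact_mod_cast le_top)
      have hZ : ContDiffAt ℝ k (T t' x) (T S (φ t' x) u) :=
        ((hsm _ _ ht'1).contDiffAt (isOpen_ball.mem_nhds huu)).of_le (by exact_mod_cast le_top)
      refine (hK (T t' x) (T S (φ t' x)) u hτ hZ
        (fun i _ hi => hCb' i hi _ u hu)).trans ?_
      have hθ : ‖fderiv ℝ (T S (φ t' x)) u‖ ^ k ≤ Real.exp (-χ * S) / 2 := by
        have h2 : ‖fderiv ℝ (T S (φ t' x)) u‖ ≤ D₁ * Real.exp (-χ * S) := hC₁' _ _ hSt u hu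
        calc ‖fderiv ℝ (T S (φ t' x)) u‖ ^ k ≤ (D₁ * Real.exp (-χ * S)) ^ k := by gcongr
          _ ≤ (D₁ * Real.exp (-χ * S)) ^ 2 :=
              pow_le_pow_of_le_one (by positivity) hDS hk2
          _ = (D₁ ^ 2 * Real.exp (-χ * S)) * Real.exp (-χ * S) := by ring
          _ ≤ 1 / 2 * Real.exp (-χ * S) := by gcongr
          _ = _ := by ring
      have h3 := ihn x t' ht'1 ht'2 _ huu
      have h4 : ∑ j ∈ Finset.Ico 1 k, ‖iteratedFDeriv ℝ j (T t' x) (T S (φ t' x) u)‖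
          ≤ (∑ j ∈ (Finset.Ico 1 k).attach,
            |Cl j.1 ⟨(Finset.mem_Ico.mp j.2).2, (Finset.mem_Ico.mp j.2).1⟩|)
              * Real.exp (-χ * t') := by
        rw [← Finset.sum_attach, Finset.sum_mul]
        refine Finset.sum_le_sum fun j _ => ?_
        refine (hCl j.1 ⟨(Finset.mem_Ico.mp j.2).2, (Finset.mem_Ico.mp j.2).1⟩ x t' ht'1 _
          huu).trans ?_
        gcongr
        exact le_abs_self _
      have he : Real.exp (-χ * t') = Real.exp (χ * S) * Real.exp (-χ * t) := by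
        rw [← Real.exp_add, ht']
        congr 1
        ring
      have he2 : Real.exp (-χ * S) * Real.exp (-χ * t') = Real.exp (-χ * t) := by
        rw [← Real.exp_add, ht']
        congr 1
        ring
      calc ‖fderiv ℝ (T S (φ t' x)) u‖ ^ k *
            ‖iteratedFDeriv ℝ k (T t' x) (T S (φ t' x) u)‖ +
          K * ∑ j ∈ Finset.Ico 1 k, ‖iteratedFDeriv ℝ j (T t' x) (T S (φ t' x) u)‖
          ≤ (Real.exp (-χ * S) / 2) * (Q * Real.exp (-χ * t')) +
            K * ((∑ j ∈ (Finset.Ico 1 k).attach,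
            |Cl j.1 ⟨(Finset.mem_Ico.mp j.2).2, (Finset.mem_Ico.mp j.2).1⟩|)
              * Real.exp (-χ * t')) := by gcongr
        _ = Q / 2 * (Real.exp (-χ * S) * Real.exp (-χ * t')) + P * Real.exp (-χ * t') := by
            rw [hP]; ring
        _ = (Q / 2 + P * Real.exp (χ * S)) * Real.exp (-χ * t) := by
            rw [he2, he]; ring
        _ ≤ Q * Real.exp (-χ * t) := by
            gcongr
            have : 2 * (P * Real.exp (χ * S)) ≤ Q := le_max_right _ _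
            linarith
  refine ⟨Q, fun x t ht u hu => ?_⟩
  obtain ⟨n, hn⟩ := exists_nat_ge (t / S)
  refine main n x t ht ?_ u hu
  rw [div_le_iff₀ hS0] at hn
  push_cast
  nlinarith

end Vale.Agent.P207.N3.H803
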