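import Vale.Agent.P207.N3.Spec
import Vale.Agent.P207.N3.H803.Ode
import Vale.Agent.P207.N3.H803.Ctr

/-!
N3-P1d (helper803): `engulf` and `contract` for the charts `e x u = e' x (r₀ u)`, from the slope
equation `u' = g (φ_s x) u`.
-/

open Set Filter Topology Metric
open scoped ContDiff

noncomputable section

namespace Vale.Agent.P207.N3.H803

section maps

variable {X B K : Type*} [TopologicalSpace K] [CompactSpace K] {E : Type} [NormedAddCommGroup E]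
  [InnerProductSpace ℝ E] [FiniteDimensional ℝ E]

/-- THE BACKWARD MAPS of the unstable leaves. `e' x u` is the end point of the geodesic from
`em x` through the point `u` of the disc at `x`; `hode`: solutions of the slope equation are such
geodesics. -/
theorem exists_maps (φ : ℝ → X → X) (pr : X → K) (φK : ℝ → K → K)
    (hφK : Continuous fun p : ℝ × K => φK p.1 p.2) (hpr : ∀ t x, pr (φ t x) = φK t (pr x))
    (g : K → E → E) {ρ χ χ' δ : ℝ} (hρ : 0 < ρ) (hδ : 0 < δ) (hg : JC g (univ ×ˢ ball 0 ρ))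
    (h0 : ∀ x, g x 0 = 0) (hU : ∀ x a, χ * ‖a‖ ^ 2 ≤ inner ℝ (fderiv ℝ (g x) 0 a) a)
    (hχ0 : 0 ≤ χ') (hχ : χ' < χ) (e' : X → E → B)
    (hode : ∀ x, ∀ t ≥ 0, ∀ u : ℝ → E,
      (∀ s ∈ Icc 0 t, HasDerivWithinAt u (g (pr (φ s x)) (u s)) (Icc 0 t) s) →
      (∀ s ∈ Icc 0 t, ‖u s‖ ≤ δ) → e' x (u 0) = e' (φ t x) (u t)) :
    ∃ ε, 0 < ε ∧ ∃ T : ℝ → X → E → E, ∀ x, ∀ t ≥ 0, ∀ u ∈ closedBall (0 : E) ε,
      e' (φ t x) u = e' x (T t x u) ∧ ‖T t x u‖ ≤ Real.exp (-χ' * t) * ‖u‖ ∧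
      ∀ v ∈ closedBall (0 : E) ε, ‖T t x u - T t x v‖ ≤ Real.exp (-χ' * t) * ‖u - v‖ := by
  classical
  obtain ⟨ε₁, hε₁, hε₁ρ, hm₁⟩ := exists_monotone g hρ hg hU hχ
  set ε₂ : ℝ := min ε₁ δ with hε₂
  have hε₂0 : 0 < ε₂ := lt_min hε₁ hδ
  have hε₂1 : ε₂ ≤ ε₁ := min_le_left _ _
  have hm : ∀ x, ∀ u ∈ closedBall (0 : E) ε₂, ∀ v ∈ closedBall (0 : E) ε₂,
      χ' * ‖u - v‖ ^ 2 ≤ inner ℝ (g x u - g x v) (u - v) := fun x u hu v hv =>
    hm₁ x u (closedBall_subset_closedBall hε₂1 hu) v (closedBall_subset_closedBall hε₂1 hv)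
  have hB := exists_backward φK hφK g (hε₂1.trans_lt hε₁ρ) hε₂0 hχ0 hg h0 hm
  choose! Uf hU1 hU2 hU3 using hB
  refine ⟨ε₂ / 2, by positivity, fun t x u => Uf (pr x) t u 0, ?_⟩
  intro x t ht u hu
  have h00 : (0 : ℝ) ∈ Icc 0 t := ⟨le_rfl, ht⟩
  have hle : ∀ w ∈ closedBall (0 : E) (ε₂ / 2), ∀ s ∈ Icc 0 t,
      Uf (pr x) t w s ∈ closedBall (0 : E) (ε₂ / 2) := by
    intro w hw s hs
    rw [mem_closedBall_zero_iff] at hw ⊢
    refine (hU3 (pr x) t ht w (mem_closedBall_zero_iff.2 hw) s hs).trans ?_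
    have : Real.exp (-χ' * (t - s)) ≤ 1 := by
      rw [Real.exp_le_one_iff]
      nlinarith [hs.2]
    calc Real.exp (-χ' * (t - s)) * ‖w‖ ≤ 1 * ‖w‖ := by gcongr
      _ ≤ ε₂ / 2 := by rw [one_mul]; exact hw
  refine ⟨?_, ?_, fun v hv => ?_⟩
  · have h1 := hode x t ht (Uf (pr x) t u) (fun s hs => by
      rw [hpr]; exact hU2 (pr x) t ht u hu s hs) (fun s hs => by
        have := hle u hu s hs
        rw [mem_closedBall_zero_iff] at this
        have h2 : ε₂ ≤ δ := min_le_right _ _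
        linarith)
    rw [hU1 (pr x) t ht u hu] at h1
    exact h1.symm
  · have h1 := hU3 (pr x) t ht u hu 0 h00
    simpa using h1
  · have h1 := contraction (f := fun s u => g (φK s (pr x)) u) (χ := χ') (ε := ε₂) ht
      (fun s _ => hm (φK s (pr x))) (hU2 (pr x) t ht u hu) (hU2 (pr x) t ht v hv)
      (fun s hs => closedBall_subset_closedBall (by linarith) (hle u hu s hs))
      (fun s hs => closedBall_subset_closedBall (by linarith) (hle v hv s hs)) 0 h00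
    rw [hU1 (pr x) t ht u hu, hU1 (pr x) t ht v hv, sub_zero] at h1
    exact h1

end maps

section scaled

variable {X B : Type}

/-- ENGULF and first order CONTRACT, for the charts `e x u = e' x (r₀ • u)`. -/
theorem engulf_of_maps (φ : ℝ → X → X) (e' : X → E2 → B) {ε χ r₀ : ℝ} (hχ : 0 < χ)
    (hr : 0 < r₀) (hrε : r₀ * 3 ≤ ε) (T : ℝ → X → E2 → E2)
    (hT : ∀ x, ∀ t ≥ 0, ∀ u ∈ closedBall (0 : E2) ε,
      e' (φ t x) u = e' x (T t x u) ∧ ‖T t x u‖ ≤ Real.exp (-χ * t) * ‖u‖ ∧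
      ∀ v ∈ closedBall (0 : E2) ε, ‖T t x u - T t x v‖ ≤ Real.exp (-χ * t) * ‖u - v‖)
    (e : X → E2 → B) (he : ∀ x, ∀ u ∈ closedBall (0 : E2) 3, e x u = e' x (r₀ • u))
    (hinj : ∀ x, InjOn (e x) (closedBall 0 3)) {t₁ : ℝ} (ht₁ : 2 / χ ≤ t₁) :
    (∀ x, ∀ t ≥ t₁, e (φ t x) '' closedBall 0 3 ⊆ e x '' ball 0 1) ∧
    (∀ x, ∀ t ≥ t₁, ∀ u ∈ ball (0 : E2) 3,
      tau e (φ t x) x u ∈ ball (0 : E2) 1 ∧ e x (tau e (φ t x) x u) = e (φ t x) u) ∧
    (∀ x, ∀ t ≥ t₁, ∀ u ∈ ball (0 : E2) 3,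
      ‖fderiv ℝ (tau e (φ t x) x) u‖ ≤ 1 * Real.exp (-χ * t)) := by
  have ht₁0 : 0 < t₁ := (div_pos two_pos hχ).trans_le ht₁
  have hexp : ∀ t ≥ t₁, Real.exp (-χ * t) * 3 < 1 := by
    intro t ht
    have h1 : 2 ≤ χ * t := by
      have := ht₁.trans ht
      rw [div_le_iff₀ hχ] at this
      linarith
    have h2 : Real.exp (-χ * t) ≤ Real.exp (-2) := Real.exp_le_exp.2 (by linarith)
    have h3 : Real.exp (-2) * 3 < 1 := by
      have h4 : (3 : ℝ) < Real.exp 2 := by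
        have := Real.add_one_lt_exp (x := 2) (by norm_num)
        linarith
      rw [Real.exp_neg, inv_mul_lt_iff₀ (Real.exp_pos _), mul_one]
      exact h4
    linarith
  -- the scaled maps
  set S : ℝ → X → E2 → E2 := fun t x u => r₀⁻¹ • T t x (r₀ • u) with hS
  have hmem : ∀ u ∈ closedBall (0 : E2) 3, r₀ • u ∈ closedBall (0 : E2) ε := by
    intro u hu
    rw [mem_closedBall_zero_iff] at hu ⊢
    rw [norm_smul, Real.norm_of_nonneg hr.le]
    calc r₀ * ‖u‖ ≤ r₀ * 3 := by gcongr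
      _ ≤ ε := hrε
  have hS1 : ∀ x, ∀ t ≥ t₁, ∀ u ∈ closedBall (0 : E2) 3, S t x u ∈ ball (0 : E2) 1 := by
    intro x t ht u hu
    have h1 := (hT x t (ht₁0.le.trans ht) _ (hmem u hu)).2.1
    rw [mem_ball_zero_iff, hS]
    simp only [norm_smul, norm_inv, Real.norm_of_nonneg hr.le] at h1 ⊢
    rw [mem_closedBall_zero_iff] at hu
    have h2 := hexp t ht
    have h3 := Real.exp_pos (-χ * t)
    calc r₀⁻¹ * ‖T t x (r₀ • u)‖ ≤ r₀⁻¹ * (Real.exp (-χ * t) * (r₀ * ‖u‖)) := by gcongr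
      _ = Real.exp (-χ * t) * ‖u‖ := by field_simp
      _ ≤ Real.exp (-χ * t) * 3 := by gcongr
      _ < 1 := h2
  have hsub : ball (0 : E2) 1 ⊆ closedBall (0 : E2) 3 :=
    ball_subset_closedBall.trans (closedBall_subset_closedBall (by norm_num))
  have hS2 : ∀ x, ∀ t ≥ t₁, ∀ u ∈ closedBall (0 : E2) 3, e x (S t x u) = e (φ t x) u := by
    intro x t ht u hu
    rw [he x _ (hsub (hS1 x t ht u hu)), he _ u hu, hS]
    simp only [smul_smul, mul_inv_cancel₀ hr.ne', one_smul]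
    exact (hT x t (ht₁0.le.trans ht) _ (hmem u hu)).1.symm
  have htau : ∀ x, ∀ t ≥ t₁, ∀ u ∈ closedBall (0 : E2) 3, tau e (φ t x) x u = S t x u := by
    intro x t ht u hu
    have hex : e (φ t x) u ∈ e x '' closedBall (0 : E2) 3 :=
      ⟨S t x u, hsub (hS1 x t ht u hu), hS2 x t ht u hu⟩
    have h1 := Function.invFunOn_mem hex
    have h2 := Function.invFunOn_eq hex
    exact hinj x h1 (hsub (hS1 x t ht u hu)) (by rw [h2, hS2 x t ht u hu])
  refine ⟨?_, ?_, ?_⟩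
  · rintro x t ht _ ⟨u, hu, rfl⟩
    exact ⟨S t x u, hS1 x t ht u hu, hS2 x t ht u hu⟩
  · intro x t ht u hu
    have hu' := ball_subset_closedBall hu
    rw [htau x t ht u hu']
    exact ⟨hS1 x t ht u hu', hS2 x t ht u hu'⟩
  · intro x t ht u hu
    rw [one_mul]
    refine norm_fderiv_le_of_lip' ℝ (Real.exp_pos _).le ?_
    filter_upwards [isOpen_ball.mem_nhds hu] with v hv
    have hu' := ball_subset_closedBall hu
    have hv' := ball_subset_closedBall hv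
    rw [htau x t ht u hu', htau x t ht v hv', hS]
    simp only [← smul_sub, norm_smul, norm_inv, Real.norm_of_nonneg hr.le]
    have h1 := (hT x t (ht₁0.le.trans ht) _ (hmem v hv')).2.2 _ (hmem u hu')
    rw [← smul_sub, norm_smul, Real.norm_of_nonneg hr.le] at h1
    calc r₀⁻¹ * ‖T t x (r₀ • v) - T t x (r₀ • u)‖
        ≤ r₀⁻¹ * (Real.exp (-χ * t) * (r₀ * ‖v - u‖)) := by gcongr
      _ = Real.exp (-χ * t) * ‖v - u‖ := by field_simp

end scaled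

section contract

variable {X B : Type}

/-- CONTRACT for all orders, from the order one and bounds for bounded times. -/
theorem contract_of (φ : ℝ → X → X) (e : X → E2 → B) {χ t₁ : ℝ} (hχ : 0 < χ) (ht₁ : 0 < t₁)
    (hφ : ∀ s t x, φ (s + t) x = φ s (φ t x)) (hinj : ∀ x, InjOn (e x) (closedBall 0 3))
    (hsm : ∀ x, ∀ t ≥ t₁, ContDiffOn ℝ ∞ (tau e (φ t x) x) (dom e (φ t x) x))
    (heng : ∀ x, ∀ t ≥ t₁, ∀ u ∈ ball (0 : E2) 3,
      tau e (φ t x) x u ∈ ball (0 : E2) 1 ∧ e x (tau e (φ t x) x u) = e (φ t x) u)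
    (h1 : ∃ C, ∀ x, ∀ t ≥ t₁, ∀ u ∈ ball (0 : E2) 3,
      ‖fderiv ℝ (tau e (φ t x) x) u‖ ≤ C * Real.exp (-χ * t))
    (hb : ∀ (k : ℕ) (S : ℝ), ∃ C, ∀ x, ∀ t ∈ Icc t₁ S, ∀ u ∈ ball (0 : E2) 3,
      ‖iteratedFDeriv ℝ k (tau e (φ t x) x) u‖ ≤ C) :
    ∀ k : ℕ, 1 ≤ k → ∃ C, ∀ x, ∀ t ≥ t₁, ∀ u ∈ ball (0 : E2) 3,
      ‖iteratedFDeriv ℝ k (tau e (φ t x) x) u‖ ≤ C * Real.exp (-χ * t) := by
  have hsub : ball (0 : E2) 1 ⊆ ball (0 : E2) 3 := ball_subset_ball (by norm_num)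
  have hcl : ball (0 : E2) 3 ⊆ closedBall (0 : E2) 3 := ball_subset_closedBall
  refine contract_all φ (fun t x => tau e (φ t x) x) ht₁ hχ ?_ ?_ ?_ h1 hb
  · intro x t ht
    refine (hsm x t ht).mono fun u hu => ⟨hu, ?_⟩
    exact ⟨_, hsub (heng x t ht u hu).1, (heng x t ht u hu).2⟩
  · intro x t ht u hu
    exact hsub (heng x t ht u hu).1
  · intro x s hs t ht u hu
    have hst : s + t ≥ t₁ := by linarith
    have h2 := heng (φ t x) s hs u hu
    have h3 := heng x t ht _ (hsub h2.1)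
    have h4 := heng x (s + t) hst u hu
    refine hinj x (hcl (hsub h4.1)) (hcl (hsub h3.1)) ?_
    rw [h4.2, h3.2, h2.2, hφ]

end contract

end Vale.Agent.P207.N3.H803
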