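import Vale.Agent.P207.N3.Spec
import Vale.Agent.P207.N3.H803.Eng

/-!
N3-P1d (helper803): the fields of `Leaf` which are needed to prove `engulf`, `contract`, `holder`
(`LC`), and the elementary calculus of the transition maps over them.
-/

open Set Filter Topology Metric
open scoped ContDiff

noncomputable section

namespace Vale.Agent.P207.N3.H803

/-- fields of `Leaf` (same names, same texts) which do not involve rates -/
structure LC (Γ X B : Type) [Group Γ] [MetricSpace X] [ProperSpace X] [MulAction Γ X]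
    [IsIsometricSMul Γ X] [TopologicalSpace B] [CompactSpace B] [T2Space B] [MulAction Γ B]
    [ContinuousConstSMul Γ B] where
  φ : ℝ → X → X
  φ_add : ∀ s t x, φ (s + t) x = φ s (φ t x)
  φ_cont : Continuous fun p : ℝ × X => φ p.1 p.2
  φ_smul : ∀ (g : Γ) t x, φ t (g • x) = g • φ t x
  em : X → B
  em_cont : Continuous em
  em_smul : ∀ (g : Γ) x, em (g • x) = g • em x
  em_φ : ∀ t x, em (φ t x) = em x
  lv : X → ℝ
  lv_cont : Continuous lv
  lv_smul : ∀ (g : Γ) x y, em x = em y → lv (g • x) - lv (g • y) = lv x - lv y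
  cocompact : ∃ K : Set X, IsCompact K ∧ ∀ x, ∃ g : Γ, g • x ∈ K
  e : X → E2 → B
  e_cont : ContinuousOn (fun p : X × E2 => e p.1 p.2) (univ ×ˢ closedBall 0 3)
  e_inj : ∀ x, InjOn (e x) (closedBall 0 3)
  e_open : IsOpen {p : X × B | p.2 ∈ e p.1 '' ball 0 3}
  e_smul : ∀ (g : Γ) x, ∀ u ∈ closedBall (0 : E2) 3, e (g • x) u = g • e x u
  near : ∀ c : ℝ, ∃ C, ∀ x y, em x = em y → |lv x - lv y| ≤ c →
    (e x '' closedBall 0 3 ∩ e y '' closedBall 0 3).Nonempty → dist x y ≤ C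
  tau_smooth : ∀ x y, em x = em y → ContDiffOn ℝ ∞ (tau e x y) (dom e x y)
  tau_cont : ∀ k : ℕ, ContinuousOn
    (fun p : (X × X) × E2 => iteratedFDeriv ℝ k (tau e p.1.1 p.1.2) p.2)
    {p | em p.1.1 = em p.1.2 ∧ p.2 ∈ dom e p.1.1 p.1.2}

variable {Γ X B : Type} [Group Γ] [MetricSpace X] [ProperSpace X] [MulAction Γ X]
  [IsIsometricSMul Γ X] [TopologicalSpace B] [CompactSpace B] [T2Space B] [MulAction Γ B]
  [ContinuousConstSMul Γ B]

namespace LC

variable (L : LC Γ X B)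

theorem e_cont_x (x : X) : ContinuousOn (L.e x) (closedBall 0 3) :=
  L.e_cont.comp (f := fun u : E2 => (x, u)) (by fun_prop) (fun _ hu => ⟨trivial, hu⟩)

theorem e_tau' {x y : X} {u : E2} (hu : L.e x u ∈ L.e y '' closedBall 0 3) :
    L.e y (tau L.e x y u) = L.e x u := Function.invFunOn_eq hu

theorem tau_mem' {x y : X} {u : E2} (hu : L.e x u ∈ L.e y '' closedBall 0 3) :
    tau L.e x y u ∈ closedBall (0 : E2) 3 := Function.invFunOn_mem hu

theorem tau_of {x y : X} {u v : E2} (hv : v ∈ closedBall (0 : E2) 3)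
    (h : L.e x u = L.e y v) : tau L.e x y u = v := by
  have h1 : L.e x u ∈ L.e y '' closedBall 0 3 := ⟨v, hv, h.symm⟩
  exact L.e_inj y (L.tau_mem' h1) hv (by rw [L.e_tau' h1, h])

theorem sub3 : ball (0 : E2) 3 ⊆ closedBall 0 3 := ball_subset_closedBall

theorem e_tau {x y : X} {u : E2} (hu : u ∈ dom L.e x y) : L.e y (tau L.e x y u) = L.e x u :=
  L.e_tau' (image_mono sub3 hu.2)

theorem tau_mem {x y : X} {u : E2} (hu : u ∈ dom L.e x y) : tau L.e x y u ∈ ball (0 : E2) 3 := by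
  obtain ⟨v, hv, hv'⟩ := hu.2
  rw [L.tau_of (sub3 hv) hv'.symm]
  exact hv

theorem mem_dom {x y : X} {u v : E2} (hu : u ∈ ball (0 : E2) 3) (hv : v ∈ ball (0 : E2) 3)
    (h : L.e x u = L.e y v) : u ∈ dom L.e x y := ⟨hu, v, hv, h.symm⟩

theorem isOpen_image (y : X) : IsOpen (L.e y '' ball (0 : E2) 3) :=
  L.e_open.preimage (f := fun b : B => (y, b)) (by fun_prop)

theorem isOpen_dom (x y : X) : IsOpen (dom L.e x y) := by
  have h1 : ContinuousOn (L.e x) (ball 0 3) := (L.e_cont_x x).mono sub3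
  exact h1.isOpen_inter_preimage isOpen_ball (L.isOpen_image y)

theorem smoothAt {x y : X} (h : L.em x = L.em y) {u : E2} (hu : u ∈ dom L.e x y) :
    ContDiffAt ℝ ∞ (tau L.e x y) u :=
  (L.tau_smooth x y h).contDiffAt ((L.isOpen_dom x y).mem_nhds hu)

theorem dom_smul {g : Γ} {x y : X} {u : E2} (hu : u ∈ dom L.e x y) :
    u ∈ dom L.e (g • x) (g • y) := by
  refine L.mem_dom hu.1 (L.tau_mem hu) ?_
  rw [L.e_smul g x u (sub3 hu.1), L.e_smul g y _ (sub3 (L.tau_mem hu)), L.e_tau hu]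

theorem tau_smul {g : Γ} {x y : X} {u : E2} (hu : u ∈ dom L.e x y) :
    tau L.e (g • x) (g • y) u = tau L.e x y u := by
  refine L.tau_of (sub3 (L.tau_mem hu)) ?_
  rw [L.e_smul g x u (sub3 hu.1), L.e_smul g y _ (sub3 (L.tau_mem hu)), L.e_tau hu]

theorem iter_smul {g : Γ} {x y : X} {u : E2} (hu : u ∈ dom L.e x y) (k : ℕ) :
    iteratedFDeriv ℝ k (tau L.e (g • x) (g • y)) u = iteratedFDeriv ℝ k (tau L.e x y) u := by
  have h : tau L.e (g • x) (g • y) =ᶠ[𝓝 u] tau L.e x y := by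
    filter_upwards [(L.isOpen_dom x y).mem_nhds hu] with w hw
    exact L.tau_smul hw
  exact (h.iteratedFDeriv ℝ k).self_of_nhds

/-- the set of pairs of frames of one leaf, with a point in both charts -/
def S3 : Set ((X × X) × E2) := {p | L.em p.1.1 = L.em p.1.2 ∧ p.2 ∈ dom L.e p.1.1 p.1.2}

theorem tau_cont0 : ContinuousOn (fun p : (X × X) × E2 => tau L.e p.1.1 p.1.2 p.2) L.S3 := by
  have h := L.tau_cont 0
  have h2 : (fun p : (X × X) × E2 => tau L.e p.1.1 p.1.2 p.2)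
      = fun p : (X × X) × E2 => (continuousMultilinearCurryFin0 ℝ E2 E2)
        (iteratedFDeriv ℝ 0 (tau L.e p.1.1 p.1.2) p.2) := by
    funext p
    simp
  rw [h2]
  exact (LinearIsometryEquiv.continuous _).comp_continuousOn h

/-- local uniform bounds and compactness: bounds mod `Γ` -/
theorem exists_bound_of_local {Z : Type*} [TopologicalSpace Z] {C : Set Z} (hC : IsCompact C)
    (P : Z → Prop) (f : Z → ℝ)
    (h : ∀ z ∈ C, ∃ M, ∀ᶠ w in 𝓝 z, P w → f w ≤ M) : ∃ M, ∀ w ∈ C, P w → f w ≤ M := by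
  refine hC.induction_on (p := fun s => ∃ M, ∀ w ∈ s, P w → f w ≤ M) ?_ ?_ ?_ ?_
  · exact ⟨0, fun w hw => hw.elim⟩
  · rintro s t hst ⟨M, hM⟩
    exact ⟨M, fun w hw => hM w (hst hw)⟩
  · rintro s t ⟨M, hM⟩ ⟨M', hM'⟩
    refine ⟨max M M', fun w hw hP => ?_⟩
    rcases hw with hw | hw
    · exact (hM w hw hP).trans (le_max_left _ _)
    · exact (hM' w hw hP).trans (le_max_right _ _)
  · intro z hz
    obtain ⟨M, hM⟩ := h z hz
    exact ⟨_, mem_nhdsWithin_of_mem_nhds hM, M, fun w hw => hw⟩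

/-- LOCAL EXTENSION of the transition map near the closed ball (smooth across the boundary) -/
def LocExt : Prop := ∀ x₀ y₀, L.em x₀ = L.em y₀ → ∀ u₀ ∈ closedBall (0 : E2) 3,
  L.e x₀ u₀ ∈ L.e y₀ '' ball 0 3 → ∃ (N : Set ((X × X) × E2)) (G : X × X → E2 → E2),
    JC G N ∧ ((x₀, y₀), u₀) ∈ N ∧
    ∀ p ∈ N, L.em p.1.1 = L.em p.1.2 → p.2 ∈ ball (0 : E2) 3 →
      G p.1 p.2 = tau L.e p.1.1 p.1.2 p.2

/-- bounds of the backward maps for bounded times -/
theorem bounds {t₁ : ℝ} (hloc : L.LocExt)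
    (heng : ∀ x, ∀ t ≥ t₁, L.e (L.φ t x) '' closedBall 0 3 ⊆ L.e x '' ball 0 1) :
    ∀ (k : ℕ) (S : ℝ), ∃ C, ∀ x, ∀ t ∈ Icc t₁ S, ∀ u ∈ ball (0 : E2) 3,
      ‖iteratedFDeriv ℝ k (tau L.e (L.φ t x) x) u‖ ≤ C := by
  intro k S
  obtain ⟨K, hK, hcov⟩ := L.cocompact
  have hcpt : IsCompact (K ×ˢ (Icc t₁ S ×ˢ closedBall (0 : E2) 3)) :=
    hK.prod (isCompact_Icc.prod (isCompact_closedBall _ _))
  obtain ⟨M, hM⟩ := exists_bound_of_local hcpt (fun p => p.2.2 ∈ ball (0 : E2) 3)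
    (fun p => ‖iteratedFDeriv ℝ k (tau L.e (L.φ p.2.1 p.1) p.1) p.2.2‖) (by
      rintro ⟨x₀, t₀, u₀⟩ ⟨hx₀, ht₀, hu₀⟩
      obtain ⟨N, G, hJ, hmem, hG⟩ := hloc (L.φ t₀ x₀) x₀ (L.em_φ _ _) u₀ hu₀
        (image_mono (ball_subset_ball (by norm_num)) (heng x₀ t₀ ht₀.1 ⟨u₀, hu₀, rfl⟩))
      set c : X × ℝ × E2 → (X × X) × E2 := fun p => ((L.φ p.2.1 p.1, p.1), p.2.2) with hc
      have hcc : Continuous c := by
        refine Continuous.prodMk (Continuous.prodMk ?_ continuous_fst) (by fun_prop)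
        exact L.φ_cont.comp (by fun_prop : Continuous fun p : X × ℝ × E2 => (p.2.1, p.1))
      have hD : ContinuousAt (fun p => ‖iteratedFDeriv ℝ k (G (c p).1) (c p).2‖)
          ((x₀, t₀, u₀) : X × ℝ × E2) := by
        have h1 := (hJ.cont k).continuousAt (hJ.isOpen.mem_nhds hmem)
        exact (ContinuousAt.comp (f := c) (x := ((x₀, t₀, u₀) : X × ℝ × E2)) h1
          hcc.continuousAt).norm
      refine ⟨‖iteratedFDeriv ℝ k (G (L.φ t₀ x₀, x₀)) u₀‖ + 1, ?_⟩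
      have h2 := hD.eventually (gt_mem_nhds (lt_add_one _))
      have h3 : ∀ᶠ p in 𝓝 ((x₀, t₀, u₀) : X × ℝ × E2), c p ∈ N :=
        hcc.continuousAt.eventually (hJ.isOpen.mem_nhds hmem)
      filter_upwards [h2, h3] with p hp hpN hpb
      have h4 : G (c p).1 =ᶠ[𝓝 p.2.2] tau L.e (L.φ p.2.1 p.1) p.1 := by
        have h5 : ∀ᶠ u in 𝓝 p.2.2, ((c p).1, u) ∈ N :=
          (hJ.isOpen.preimage (by fun_prop : Continuous fun u : E2 => ((c p).1, u))).mem_nhds hpN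
        filter_upwards [h5, isOpen_ball.mem_nhds hpb] with u hu1 hu2
        exact hG ((c p).1, u) hu1 (L.em_φ _ _) hu2
      have h6 := (h4.iteratedFDeriv ℝ k).self_of_nhds
      rw [← h6]
      exact hp.le)
  refine ⟨M, fun x t ht u hu => ?_⟩
  obtain ⟨g, hg⟩ := hcov x
  have h1 := hM (g • x, t, u) ⟨hg, ht, sub3 hu⟩ hu
  simp only [L.φ_smul] at h1
  have hd : u ∈ dom L.e (L.φ t x) x := ⟨hu, image_mono (ball_subset_ball (by norm_num))
    (heng x t ht.1 ⟨u, sub3 hu, rfl⟩)⟩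
  rwa [L.iter_smul hd] at h1

/-- `contract` from `engulf`, the local extension and the first order contraction -/
theorem contract {χ t₁ : ℝ} (hχ : 0 < χ) (ht₁ : 0 < t₁) (hloc : L.LocExt)
    (heng : ∀ x, ∀ t ≥ t₁, L.e (L.φ t x) '' closedBall 0 3 ⊆ L.e x '' ball 0 1)
    (h1 : ∃ C, ∀ x, ∀ t ≥ t₁, ∀ u ∈ ball (0 : E2) 3,
      ‖fderiv ℝ (tau L.e (L.φ t x) x) u‖ ≤ C * Real.exp (-χ * t)) :
    ∀ k : ℕ, 1 ≤ k → ∃ C, ∀ x, ∀ t ≥ t₁, ∀ u ∈ ball (0 : E2) 3,
      ‖iteratedFDeriv ℝ k (tau L.e (L.φ t x) x) u‖ ≤ C * Real.exp (-χ * t) := by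
  refine contract_of L.φ L.e hχ ht₁ L.φ_add L.e_inj (fun x t _ => L.tau_smooth _ _ (L.em_φ _ _))
    (fun x t ht u hu => ?_) h1 (L.bounds hloc heng)
  obtain ⟨v, hv, hv'⟩ := heng x t ht ⟨u, sub3 hu, rfl⟩
  have h2 := L.tau_of (x := L.φ t x) (y := x) (u := u) (v := v)
    (sub3 (ball_subset_ball (by norm_num) hv)) hv'.symm
  rw [h2]
  exact ⟨hv, hv'⟩

end LC

end Vale.Agent.P207.N3.H803
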