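import Vale.Agent.P207.N3.H803.Core
import Vale.Agent.P207.N3.H459.Slice
import Vale.Agent.P207.N3.H862.JC2

/-!
N3-P1d (helper803): the field `holder` of `Leaf`: Hölder dependence of the transition maps, all
orders, from the Hölder dependence (order zero) of the tubes `A x`.
-/

set_option linter.unusedSectionVars false

open Set Filter Topology Metric
open scoped ContDiff

noncomputable section

namespace Vale.Agent.P207.N3.H803

/-! ### positive lower bounds and quantitative injectivity -/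

theorem exists_pos_le {Z : Type*} [TopologicalSpace Z] {C : Set Z} (hC : IsCompact C) (f : Z → ℝ)
    (hf : ContinuousOn f C) (hpos : ∀ z ∈ C, 0 < f z) : ∃ c, 0 < c ∧ ∀ z ∈ C, c ≤ f z := by
  have h1 : ContinuousOn (fun z => (f z)⁻¹) C := hf.inv₀ fun z hz => (hpos z hz).ne'
  obtain ⟨M, hM⟩ := hC.exists_bound_of_continuousOn h1
  refine ⟨(|M| + 1)⁻¹, by positivity, fun z hz => ?_⟩
  have h2 := hM z hz
  rw [Real.norm_eq_abs, abs_of_pos (inv_pos.2 (hpos z hz))] at h2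
  have h3 : (f z)⁻¹ ≤ |M| + 1 := by linarith [le_abs_self M]
  exact (inv_le_comm₀ (hpos z hz) (by positivity)).1 h3

/-- quantitative local injectivity of a family of maps with injective derivatives -/
theorem exists_lower {X : Type*} [PseudoMetricSpace X] {W V : Type*} [NormedAddCommGroup W]
    [NormedSpace ℝ W] [ProperSpace W] [NormedAddCommGroup V] [NormedSpace ℝ V]
    (A : X → W → V) {Q : Set X} {P O : Set W} (hQ : IsCompact Q) (hP : IsCompact P)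
    (hPc : Convex ℝ P) (hPO : P ⊆ O)
    (hd : ∀ y ∈ Q, ∀ p ∈ O, DifferentiableAt ℝ (A y) p)
    (hc : ContinuousOn (fun q : X × W => fderiv ℝ (A q.1) q.2) (Q ×ˢ O))
    (hinj : ∀ y ∈ Q, ∀ p ∈ P, Function.Injective (fderiv ℝ (A y) p)) :
    ∃ c η, 0 < c ∧ 0 < η ∧ ∀ y ∈ Q, ∀ p ∈ P, ∀ p' ∈ P, ‖p' - p‖ ≤ η →
      c * ‖p' - p‖ ≤ ‖A y p' - A y p‖ := by
  have hQP : IsCompact (Q ×ˢ P) := hQ.prod hP
  have hc' : ContinuousOn (fun q : X × W => fderiv ℝ (A q.1) q.2) (Q ×ˢ P) :=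
    hc.mono (prod_mono_right hPO)
  -- lower bound of the derivative
  obtain ⟨c, hc0, hcb⟩ : ∃ c, 0 < c ∧ ∀ y ∈ Q, ∀ p ∈ P, ∀ w : W,
      c * ‖w‖ ≤ ‖fderiv ℝ (A y) p w‖ := by
    have hcomp : IsCompact ((Q ×ˢ P) ×ˢ sphere (0 : W) 1) := hQP.prod (isCompact_sphere _ _)
    obtain ⟨c, hc0, hcb⟩ := exists_pos_le hcomp
      (fun z => ‖fderiv ℝ (A z.1.1) z.1.2 z.2‖) (by
        have h1 : ContinuousOn (fun z : (X × W) × W => fderiv ℝ (A z.1.1) z.1.2)
            ((Q ×ˢ P) ×ˢ sphere (0 : W) 1) :=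
          hc'.comp (f := fun z : (X × W) × W => z.1) continuous_fst.continuousOn
            fun z hz => hz.1
        exact (h1.clm_apply continuous_snd.continuousOn).norm) (by
        rintro ⟨⟨y, p⟩, w⟩ ⟨⟨hy, hp⟩, hw⟩
        rw [norm_pos_iff]
        intro h0
        have h1 : w = 0 := hinj y hy p hp (by simpa using h0)
        rw [mem_sphere_zero_iff_norm, h1, norm_zero] at hw
        exact zero_ne_one hw)
    refine ⟨c, hc0, fun y hy p hp w => ?_⟩
    by_cases hw : w = 0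
    · simp [hw]
    · have hw' : 0 < ‖w‖ := norm_pos_iff.2 hw
      have h1 := hcb ((y, p), ‖w‖⁻¹ • w) ⟨⟨hy, hp⟩, by
        rw [mem_sphere_zero_iff_norm, norm_smul, norm_inv, norm_norm, inv_mul_cancel₀ hw'.ne']⟩
      simp only [map_smul, norm_smul, norm_inv, norm_norm] at h1
      rwa [le_inv_mul_iff₀ hw', mul_comm] at h1
  -- uniform continuity
  have hu := hQP.uniformContinuousOn_of_continuous hc'
  rw [Metric.uniformContinuousOn_iff] at hu
  obtain ⟨η, hη, hηb⟩ := hu (c / 2) (by positivity)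
  refine ⟨c / 2, η / 2, by positivity, by positivity, fun y hy p hp p' hp' hpp => ?_⟩
  have hconv : Convex ℝ (P ∩ closedBall p (η / 2)) := hPc.inter (convex_closedBall _ _)
  have hmv := hconv.norm_image_sub_le_of_norm_hasFDerivWithin_le' (f := A y)
    (f' := fun z => fderiv ℝ (A y) z) (φ := fderiv ℝ (A y) p) (C := c / 2)
    (fun z hz => (hd y hy z (hPO hz.1)).hasFDerivAt.hasFDerivWithinAt) (fun z hz => by
      have h1 := hηb (y, z) ⟨hy, hz.1⟩ (y, p) ⟨hy, hp⟩ (by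
        rw [Prod.dist_eq, dist_self, max_eq_right dist_nonneg]
        exact (mem_closedBall.1 hz.2).trans_lt (by linarith))
      rw [dist_eq_norm] at h1
      exact h1.le) ⟨hp, mem_closedBall_self (by positivity)⟩ ⟨hp', by
      rw [mem_closedBall, dist_eq_norm]; exact hpp⟩
  have h2 := hcb y hy p hp (p' - p)
  have h3 : ‖fderiv ℝ (A y) p (p' - p)‖ ≤ ‖A y p' - A y p‖ +
      ‖A y p' - A y p - fderiv ℝ (A y) p (p' - p)‖ := by
    have : fderiv ℝ (A y) p (p' - p) = (A y p' - A y p) -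
      (A y p' - A y p - fderiv ℝ (A y) p (p' - p)) := by abel
    calc ‖fderiv ℝ (A y) p (p' - p)‖ = ‖(A y p' - A y p) -
          (A y p' - A y p - fderiv ℝ (A y) p (p' - p))‖ := by rw [← this]
      _ ≤ _ := norm_sub_le _ _
  linarith

variable {Γ X B : Type} [Group Γ] [MetricSpace X] [ProperSpace X] [MulAction Γ X]
  [IsIsometricSMul Γ X] [TopologicalSpace B] [CompactSpace B] [T2Space B] [MulAction Γ B]
  [ContinuousConstSMul Γ B] {V : Type} [NormedAddCommGroup V] [NormedSpace ℝ V]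
  [FiniteDimensional ℝ V]

section glue

variable (S : H459.Slice X B V)

theorem A_inj2 {y : X} {s s' : ℝ} {v v' : E2} (hv : v ∈ closedBall (0 : E2) 3)
    (hv' : v' ∈ closedBall (0 : E2) 3) (h : S.A y (s, v) = S.A y (s', v')) :
    (s, v) = (s', v') := by
  have h1 := congrArg (S.psi (S.em y) (-s')) h
  rw [S.psi_A y (-s') s (S.mem_R hv), S.psi_A y (-s') s' (S.mem_R hv'), neg_add_cancel] at h1
  have h2 := S.A_inj y _ v hv v' hv' h1
  subst h2
  rw [S.A_psi y _ v (S.mem_R hv)] at h1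
  have h3 := S.psi_ne _ _ _ h1
  rw [Prod.mk.injEq]
  exact ⟨by linarith, rfl⟩

/-- `LocExt` from a slice -/
theorem locExt_of (L : LC Γ X B) (hinv : H459.InvThm) (he : L.e = S.e) (hem : L.em = S.em) :
    L.LocExt := by
  intro x₀ y₀ h u₀ hu₀ hv
  obtain ⟨v₀, hv₀, hv⟩ := hv
  rw [hem] at h
  rw [he] at hv
  obtain ⟨T, G, h1, h2, -, h4⟩ := S.tau_local' hinv h (S.mem_R hu₀) hv₀ hv.symm
  refine ⟨T, fun z u => (G z u).2, h1.snd, h2, fun p hp hp1 _ => ?_⟩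
  rw [hem] at hp1
  rw [he]
  exact ((h4 p hp).2.2.2 hp1).2.symm

end glue

/-! ### the compact sets of pairs of frames -/

namespace LC

variable (L : LC Γ X B)

/-- pairs in `Q`, with a point in both discs of radius `r` -/
def Cs (Q : Set X) (r : ℝ) : Set ((X × X) × E2) :=
  {p | p.1.1 ∈ Q ∧ p.1.2 ∈ Q ∧ L.em p.1.1 = L.em p.1.2 ∧ p.2 ∈ closedBall (0 : E2) r ∧
    L.e p.1.1 p.2 ∈ L.e p.1.2 '' closedBall 0 r}

theorem isCompact_Cs {Q : Set X} (hQ : IsCompact Q) {r : ℝ} (hr : r ≤ 3) :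
    IsCompact (L.Cs Q r) := by
  set D : Set ((X × X) × (E2 × E2)) := (Q ×ˢ Q) ×ˢ (closedBall 0 r ×ˢ closedBall 0 r) with hD
  have hDc : IsCompact D := (hQ.prod hQ).prod
    ((isCompact_closedBall _ _).prod (isCompact_closedBall _ _))
  have hsub : closedBall (0 : E2) r ⊆ closedBall 0 3 := closedBall_subset_closedBall hr
  set F : (X × X) × (E2 × E2) → (B × B) × (B × B) := fun p =>
    ((L.em p.1.1, L.em p.1.2), (L.e p.1.1 p.2.1, L.e p.1.2 p.2.2)) with hF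
  have hFc : ContinuousOn F D := by
    refine ContinuousOn.prodMk (Continuous.continuousOn ?_) (ContinuousOn.prodMk ?_ ?_)
    · exact (L.em_cont.comp (continuous_fst.comp continuous_fst)).prodMk
        (L.em_cont.comp (continuous_snd.comp continuous_fst))
    · exact L.e_cont.comp (f := fun p : (X × X) × (E2 × E2) => (p.1.1, p.2.1))
        (by fun_prop) fun p hp => ⟨trivial, hsub hp.2.1⟩
    · exact L.e_cont.comp (f := fun p : (X × X) × (E2 × E2) => (p.1.2, p.2.2))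
        (by fun_prop) fun p hp => ⟨trivial, hsub hp.2.2⟩
  have hcl : IsClosed (D ∩ F ⁻¹' (diagonal B ×ˢ diagonal B)) :=
    hFc.preimage_isClosed_of_isClosed hDc.isClosed
      (isClosed_diagonal.prod isClosed_diagonal)
  have hcp : IsCompact (D ∩ F ⁻¹' (diagonal B ×ˢ diagonal B)) :=
    hDc.of_isClosed_subset hcl inter_subset_left
  have himg : L.Cs Q r = (fun p : (X × X) × (E2 × E2) => ((p.1, p.2.1) : (X × X) × E2)) ''
      (D ∩ F ⁻¹' (diagonal B ×ˢ diagonal B)) := by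
    ext p
    constructor
    · rintro ⟨h1, h2, h3, h4, v, hv, hv'⟩
      exact ⟨(p.1, (p.2, v)), ⟨⟨⟨h1, h2⟩, h4, hv⟩, h3, hv'.symm⟩, rfl⟩
    · rintro ⟨q, ⟨⟨⟨h1, h2⟩, h4, hv⟩, h3, hv'⟩, rfl⟩
      exact ⟨h1, h2, h3, h4, q.2.2, hv, Eq.symm hv'⟩
  rw [himg]
  exact hcp.image (by fun_prop)

theorem Cs_sub {Q : Set X} {r : ℝ} (hr : r < 3) {p : (X × X) × E2} (hp : p ∈ L.Cs Q r) :
    p ∈ L.S3 := by
  obtain ⟨_, _, h3, h4, h5⟩ := hp
  exact ⟨h3, closedBall_subset_ball hr h4, image_mono (closedBall_subset_ball hr) h5⟩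

theorem tau_Cs {Q : Set X} {r : ℝ} (hr : r ≤ 3) {p : (X × X) × E2} (hp : p ∈ L.Cs Q r) :
    tau L.e p.1.1 p.1.2 p.2 ∈ closedBall (0 : E2) r := by
  obtain ⟨_, _, _, _, v, hv, hv'⟩ := hp
  rw [L.tau_of (closedBall_subset_closedBall hr hv) hv'.symm]
  exact hv

/-- the derivatives of the transition maps are bounded on `Cs` -/
theorem bound_Cs {Q : Set X} (hQ : IsCompact Q) {r : ℝ} (hr : r < 3) (k : ℕ) :
    ∃ M, ∀ p ∈ L.Cs Q r, ‖iteratedFDeriv ℝ k (tau L.e p.1.1 p.1.2) p.2‖ ≤ M :=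
  (L.isCompact_Cs hQ hr.le).exists_bound_of_continuousOn
    ((L.tau_cont k).mono fun _ hp => L.Cs_sub hr hp)

end LC

/-! ### the crossing function -/

section cross

variable (L : LC Γ X B) (S : H459.Slice X B V) (hinv : H459.InvThm) (he : L.e = S.e)
  (hem : L.em = S.em)

/-- crossing time and crossing point -/
def cr (p : (X × X) × E2) : ℝ × E2 := by
  classical
  exact (if h : ∃ s, S.A p.1.2 (s, tau L.e p.1.1 p.1.2 p.2) = S.A p.1.1 (0, p.2)
    then Classical.choose h else 0, tau L.e p.1.1 p.1.2 p.2)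

include hinv he hem

theorem cr_spec {p : (X × X) × E2} (hp : p ∈ L.S3) :
    S.A p.1.2 (cr L S p) = S.A p.1.1 (0, p.2) ∧ (cr L S p).2 ∈ closedBall (0 : E2) 3 ∧
    ∃ (T : Set ((X × X) × E2)) (G : X × X → E2 → ℝ × E2), JC G T ∧ p ∈ T ∧
      ∀ w ∈ T, L.em w.1.1 = L.em w.1.2 → w ∈ L.S3 ∧ S.A w.1.2 (G w.1 w.2) = S.A w.1.1 (0, w.2) ∧
        (G w.1 w.2).2 = tau L.e w.1.1 w.1.2 w.2 := by
  obtain ⟨h1, h2⟩ := hp
  rw [hem] at h1
  rw [he] at h2
  obtain ⟨T, G, hJ, hm, hG⟩ := S.tau_local hinv h1 h2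
  have hG' : ∀ w ∈ T, L.em w.1.1 = L.em w.1.2 → w ∈ L.S3 ∧
      S.A w.1.2 (G w.1 w.2) = S.A w.1.1 (0, w.2) ∧
        (G w.1 w.2).2 = tau L.e w.1.1 w.1.2 w.2 := by
    intro w hw hw1
    obtain ⟨_, _, h5, h6⟩ := hG w hw
    rw [hem] at hw1
    obtain ⟨h7, h8⟩ := h6 hw1
    refine ⟨⟨by rw [hem]; exact hw1, by rw [he]; exact h7⟩, h5, ?_⟩
    rw [he]
    exact h8.symm
  obtain ⟨h3, h4, h5⟩ := hG' p hm (by rw [hem]; exact h1)
  have hex : ∃ s, S.A p.1.2 (s, tau L.e p.1.1 p.1.2 p.2) = S.A p.1.1 (0, p.2) := by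
    refine ⟨(G p.1 p.2).1, ?_⟩
    rw [← h5, Prod.mk.eta]
    exact h4
  refine ⟨?_, LC.sub3 (L.tau_mem h3.2), T, G, hJ, hm, hG'⟩
  unfold cr
  rw [dif_pos hex]
  exact Classical.choose_spec hex

theorem cr_cont : ContinuousOn (cr L S) L.S3 := by
  intro p hp
  obtain ⟨h1, h2, T, G, hJ, hm, hG⟩ := cr_spec L S hinv he hem hp
  have hc : ContinuousAt (fun w : (X × X) × E2 => G w.1 w.2) p :=
    hJ.continuousOn.continuousAt (hJ.isOpen.mem_nhds hm)
  refine hc.continuousWithinAt.congr_of_eventuallyEq_of_mem ?_ hp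
  filter_upwards [mem_nhdsWithin_of_mem_nhds (hJ.isOpen.mem_nhds hm), self_mem_nhdsWithin]
    with w hw1 hw2
  obtain ⟨_, h4, h5⟩ := hG w hw1 hw2.1
  obtain ⟨h6, h7, _⟩ := cr_spec L S hinv he hem hw2
  have h8 : (G w.1 w.2).2 ∈ closedBall (0 : E2) 3 := by
    rw [h5]; exact LC.sub3 (L.tau_mem hw2.2)
  have := A_inj2 S (y := w.1.2) (s := (cr L S w).1) (v := (cr L S w).2)
    (s' := (G w.1 w.2).1) (v' := (G w.1 w.2).2) h7 h8 (by
      rw [Prod.mk.eta, Prod.mk.eta, h6, h4])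
  rw [Prod.mk.eta, Prod.mk.eta] at this
  exact this

/-- HÖLDER, ORDER ZERO -/
theorem holder_zero {Q : Set X} (hQ : IsCompact Q)
    (H1 : ∀ S₀ : ℝ, ∃ C α : ℝ, 0 < α ∧ ∀ y ∈ Q, ∀ y' ∈ Q, ∀ s ∈ Icc (-S₀) S₀,
      ∀ v ∈ closedBall (0 : E2) 3, ‖S.A y (s, v) - S.A y' (s, v)‖ ≤ C * dist y y' ^ α) :
    ∃ C α δ : ℝ, 0 < α ∧ 0 < δ ∧ ∀ x y x' y' u, ((x, y), u) ∈ L.Cs Q (5 / 2) →
      ((x', y'), u) ∈ L.Cs Q (5 / 2) → dist x x' + dist y y' ≤ δ →
      ‖tau L.e x y u - tau L.e x' y' u‖ ≤ C * (dist x x' + dist y y') ^ α := by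
  have hr3 : (5 / 2 : ℝ) < 3 := by norm_num
  have hC := L.isCompact_Cs hQ hr3.le
  have hcc : ContinuousOn (cr L S) (L.Cs Q (5 / 2)) :=
    (cr_cont L S hinv he hem).mono fun _ hp => L.Cs_sub hr3 hp
  -- bound of the crossing times
  obtain ⟨M, hM⟩ := hC.exists_bound_of_continuousOn hcc
  set S₀ : ℝ := |M| with hS₀
  obtain ⟨Ch, α, hα, hCh⟩ := H1 S₀
  set P : Set (ℝ × E2) := Icc (-S₀) S₀ ×ˢ closedBall (0 : E2) (5 / 2) with hP
  have hPin : ∀ p ∈ L.Cs Q (5 / 2), cr L S p ∈ P := by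
    intro p hp
    have h1 := hM p hp
    have h2 : |(cr L S p).1| ≤ S₀ := by
      have h3 : ‖(cr L S p).1‖ ≤ ‖cr L S p‖ := norm_fst_le _
      rw [Real.norm_eq_abs] at h3
      exact (h3.trans h1).trans (le_abs_self M)
    refine ⟨abs_le.1 h2, ?_⟩
    exact L.tau_Cs hr3.le hp
  obtain ⟨c, η, hc, hη, hlow⟩ := exists_lower S.A (Q := Q) (P := P)
    (O := univ ×ˢ ball (0 : E2) S.R) hQ (isCompact_Icc.prod (isCompact_closedBall _ _))
    ((convex_Icc _ _).prod (convex_closedBall _ _)) (by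
      rintro ⟨s, v⟩ ⟨_, hv⟩
      exact ⟨mem_univ _, closedBall_subset_ball (hr3.trans S.R_gt) hv⟩) (by
      rintro y _ ⟨s, v⟩ ⟨_, hv⟩
      exact S.A_jc.differentiableAt (p := (y, (s, v))) ⟨mem_univ _, mem_univ _, hv⟩) (by
      refine S.A_jc.fderiv.continuousOn.mono ?_
      rintro ⟨y, s, v⟩ ⟨_, _, hv⟩
      exact ⟨mem_univ _, mem_univ _, hv⟩) (by
      rintro y _ ⟨s, v⟩ ⟨_, hv⟩
      exact (S.A_der' hinv y s (closedBall_subset_ball (hr3.trans S.R_gt) hv)).1)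
  have hu := hC.uniformContinuousOn_of_continuous hcc
  rw [Metric.uniformContinuousOn_iff] at hu
  obtain ⟨δ, hδ, hδb⟩ := hu η hη
  refine ⟨(2 * |Ch|) / c, α, δ / 2, hα, by positivity, ?_⟩
  intro x y x' y' u hp hp' hd
  have hpp : dist ((x, y), u) ((x', y'), u) < δ := by
    rw [Prod.dist_eq, Prod.dist_eq, dist_self]
    have h1 := dist_nonneg (x := x) (y := x')
    have h2 := dist_nonneg (x := y) (y := y')
    refine max_lt (max_lt ?_ ?_) hδ <;> linarith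
  have h1 := hδb _ hp _ hp' hpp
  rw [dist_comm, dist_eq_norm] at h1
  have h2 := hlow y hp.2.1 _ (hPin _ hp) _ (hPin _ hp') h1.le
  have h3 := (cr_spec L S hinv he hem (L.Cs_sub hr3 hp)).1
  have h4 := (cr_spec L S hinv he hem (L.Cs_sub hr3 hp')).1
  simp only at h3 h4
  have hsub : closedBall (0 : E2) (5 / 2) ⊆ closedBall 0 3 := closedBall_subset_closedBall hr3.le
  have h0S : (0 : ℝ) ∈ Icc (-S₀) S₀ := ⟨by simp [hS₀], by simp [hS₀]⟩
  have h5 : ‖S.A x (0, u) - S.A x' (0, u)‖ ≤ Ch * dist x x' ^ α :=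
    hCh x hp.1 x' hp'.1 0 h0S u (hsub hp.2.2.2.1)
  have hz := hPin _ hp'
  have h6 : ‖S.A y (cr L S ((x', y'), u)) - S.A y' (cr L S ((x', y'), u))‖ ≤
      Ch * dist y y' ^ α := by
    have := hCh y hp.2.1 y' hp'.2.1 _ hz.1 _ (hsub hz.2)
    rwa [Prod.mk.eta] at this
  set d : ℝ := dist x x' + dist y y' with hdd
  have hd0 : 0 ≤ d := add_nonneg dist_nonneg dist_nonneg
  have h7 : Ch * dist x x' ^ α ≤ |Ch| * d ^ α := by
    have h8 : dist x x' ^ α ≤ d ^ α :=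
      Real.rpow_le_rpow dist_nonneg (by rw [hdd]; linarith [dist_nonneg (x := y) (y := y')]) hα.le
    have h9 : 0 ≤ dist x x' ^ α := Real.rpow_nonneg dist_nonneg _
    calc Ch * dist x x' ^ α ≤ |Ch| * dist x x' ^ α := by gcongr; exact le_abs_self _
      _ ≤ _ := by gcongr
  have h7' : Ch * dist y y' ^ α ≤ |Ch| * d ^ α := by
    have h8 : dist y y' ^ α ≤ d ^ α :=
      Real.rpow_le_rpow dist_nonneg (by rw [hdd]; linarith [dist_nonneg (x := x) (y := x')]) hα.le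
    have h9 : 0 ≤ dist y y' ^ α := Real.rpow_nonneg dist_nonneg _
    calc Ch * dist y y' ^ α ≤ |Ch| * dist y y' ^ α := by gcongr; exact le_abs_self _
      _ ≤ _ := by gcongr
  have h8 : ‖S.A y (cr L S ((x', y'), u)) - S.A y (cr L S ((x, y), u))‖ ≤ 2 * |Ch| * d ^ α := by
    have h9 : S.A y (cr L S ((x', y'), u)) - S.A y (cr L S ((x, y), u)) =
        (S.A y (cr L S ((x', y'), u)) - S.A y' (cr L S ((x', y'), u))) -
          (S.A x (0, u) - S.A x' (0, u)) := by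
      rw [h3, h4]; abel
    rw [h9]
    refine (norm_sub_le _ _).trans ?_
    linarith
  have h10 : ‖tau L.e x y u - tau L.e x' y' u‖ ≤ ‖cr L S ((x', y'), u) - cr L S ((x, y), u)‖ := by
    rw [norm_sub_rev]
    exact norm_snd_le (cr L S ((x', y'), u) - cr L S ((x, y), u))
  refine h10.trans ?_
  have h11 := h2.trans h8
  rw [div_mul_eq_mul_div, le_div_iff₀ hc]
  linarith

end cross

end Vale.Agent.P207.N3.H803
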