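import Vale.Agent.P207.N3.H803.Hold

/-!
N3-P1d (helper803): the field `holder` of `Leaf` (all orders).
-/

set_option linter.unusedSectionVars false

open Set Filter Topology Metric
open scoped ContDiff

noncomputable section

namespace Vale.Agent.P207.N3.H803

variable {Γ X B : Type} [Group Γ] [MetricSpace X] [ProperSpace X] [MulAction Γ X]
  [IsIsometricSMul Γ X] [TopologicalSpace B] [CompactSpace B] [T2Space B] [MulAction Γ B]
  [ContinuousConstSMul Γ B] {V : Type} [NormedAddCommGroup V] [NormedSpace ℝ V]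
  [FiniteDimensional ℝ V]

variable (L : LC Γ X B) (S : H459.Slice X B V) (hinv : H459.InvThm) (he : L.e = S.e)
  (hem : L.em = S.em)

/-- the open set where the transition map stays in the disc of radius `5/2` -/
def Vs (w : X × X) : Set E2 :=
  {u | u ∈ ball (0 : E2) (5 / 2) ∧ u ∈ dom L.e w.1 w.2 ∧ tau L.e w.1 w.2 u ∈ ball (0 : E2) (5 / 2)}

theorem isOpen_Vs {w : X × X} (h : L.em w.1 = L.em w.2) : IsOpen (Vs L w) := by
  have h1 : ContinuousOn (tau L.e w.1 w.2) (dom L.e w.1 w.2) :=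
    (L.tau_smooth w.1 w.2 h).continuousOn
  have h2 := h1.isOpen_inter_preimage (L.isOpen_dom w.1 w.2) (isOpen_ball (x := (0 : E2))
    (ε := 5 / 2))
  have h3 : Vs L w = ball (0 : E2) (5 / 2) ∩
      (dom L.e w.1 w.2 ∩ tau L.e w.1 w.2 ⁻¹' ball (0 : E2) (5 / 2)) := rfl
  rw [h3]
  exact isOpen_ball.inter h2

theorem Vs_sub {Q : Set X} {w : X × X} (h1 : w.1 ∈ Q) (h2 : w.2 ∈ Q)
    (h : L.em w.1 = L.em w.2) {u : E2} (hu : u ∈ Vs L w) : (w, u) ∈ L.Cs Q (5 / 2) :=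
  ⟨h1, h2, h, ball_subset_closedBall hu.1, _, ball_subset_closedBall hu.2.2, L.e_tau hu.2.1⟩

/-- the set of points with a good neighbourhood is open relatively to the pairs of one leaf -/
theorem exists_nbhd {p : (X × X) × E2} (hp : L.em p.1.1 = L.em p.1.2) (hu : p.2 ∈ Vs L p.1) :
    ∃ δ > 0, ∀ w : (X × X) × E2, dist w p < δ → L.em w.1.1 = L.em w.1.2 → w.2 ∈ Vs L w.1 := by
  have h1 : p ∈ L.S3 := ⟨hp, hu.2.1⟩
  -- the domain is relatively open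
  have h2 : ∀ᶠ w in 𝓝 p, w.2 ∈ ball (0 : E2) (5 / 2) :=
    continuous_snd.continuousAt.eventually (isOpen_ball.mem_nhds hu.1)
  have hb3 : ball (0 : E2) (5 / 2) ⊆ ball 0 3 := ball_subset_ball (by norm_num)
  have h3 : ∀ᶠ w : (X × X) × E2 in 𝓝 p, w.2 ∈ dom L.e w.1.1 w.1.2 := by
    have hc : ContinuousAt (fun w : (X × X) × E2 => (w.1.2, L.e w.1.1 w.2)) p := by
      refine ContinuousAt.prodMk (by fun_prop) ?_
      have h4 : ContinuousOn (fun q : X × E2 => L.e q.1 q.2) (univ ×ˢ ball 0 3) :=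
        L.e_cont.mono (prod_mono_right LC.sub3)
      have h5 := h4.continuousAt (x := (p.1.1, p.2))
        ((isOpen_univ.prod isOpen_ball).mem_nhds ⟨trivial, hb3 hu.1⟩)
      exact ContinuousAt.comp (f := fun w : (X × X) × E2 => (w.1.1, w.2)) h5 (by fun_prop)
    have h6 := hc.eventually (L.e_open.mem_nhds (show (p.1.2, L.e p.1.1 p.2) ∈
      {q : X × B | q.2 ∈ L.e q.1 '' ball 0 3} from h1.2.2))
    filter_upwards [h2, h6] with w hw1 hw2
    exact ⟨hb3 hw1, hw2⟩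
  have h7 : ∀ᶠ w in 𝓝[L.S3] p, tau L.e w.1.1 w.1.2 w.2 ∈ ball (0 : E2) (5 / 2) :=
    (L.tau_cont0 p h1).eventually (isOpen_ball.mem_nhds hu.2.2)
  rw [eventually_nhdsWithin_iff] at h7
  obtain ⟨δ, hδ, h8⟩ := Metric.eventually_nhds_iff.1 (h2.and (h3.and h7))
  refine ⟨δ, hδ, fun w hw hem' => ?_⟩
  obtain ⟨h9, h10, h11⟩ := h8 hw
  exact ⟨h9, h10, h11 ⟨hem', h10⟩⟩

/-- uniform size of the good balls -/
theorem exists_radius {Q : Set X} (hQ : IsCompact Q) :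
    ∃ t > 0, ∀ p ∈ L.Cs Q 2, ball p.2 t ⊆ Vs L p.1 := by
  refine (L.isCompact_Cs hQ (by norm_num : (2 : ℝ) ≤ 3)).induction_on
    (p := fun s => ∃ t > 0, ∀ p ∈ s, L.em p.1.1 = L.em p.1.2 → ball p.2 t ⊆ Vs L p.1) ?_ ?_ ?_ ?_
      |>.imp fun t ht => ⟨ht.1, fun p hp => ht.2 p hp hp.2.2.1⟩
  · exact ⟨1, one_pos, fun p hp => hp.elim⟩
  · rintro s s' hss ⟨t, ht, h⟩
    exact ⟨t, ht, fun p hp => h p (hss hp)⟩
  · rintro s s' ⟨t, ht, h⟩ ⟨t', ht', h'⟩
    refine ⟨min t t', lt_min ht ht', fun p hp hem' => ?_⟩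
    rcases hp with hp | hp
    · exact (ball_subset_ball (min_le_left _ _)).trans (h p hp hem')
    · exact (ball_subset_ball (min_le_right _ _)).trans (h' p hp hem')
  · intro p hp
    have hp3 : p ∈ L.S3 := L.Cs_sub (by norm_num) hp
    have h1 : p.2 ∈ Vs L p.1 := ⟨closedBall_subset_ball (by norm_num) hp.2.2.2.1, hp3.2,
      closedBall_subset_ball (by norm_num) (L.tau_Cs (by norm_num) hp)⟩
    obtain ⟨δ, hδ, h2⟩ := exists_nbhd L hp.2.2.1 h1
    refine ⟨_, mem_nhdsWithin_of_mem_nhds (ball_mem_nhds p (half_pos hδ)), δ / 2, half_pos hδ,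
      fun w hw hem' u hu => ?_⟩
    refine h2 (w.1, u) ?_ hem'
    have h3 : dist ((w.1, u) : (X × X) × E2) p ≤ dist ((w.1, u) : (X × X) × E2) w + dist w p :=
      dist_triangle _ _ _
    have h4 : dist ((w.1, u) : (X × X) × E2) w < δ / 2 := by
      rw [Prod.dist_eq, dist_self, max_eq_right dist_nonneg]
      exact hu
    rw [mem_ball] at hw
    linarith

/-- pairs of frames of one leaf, in `Q` -/
def WW (Q : Set X) : Type := {w : X × X // w.1 ∈ Q ∧ w.2 ∈ Q ∧ L.em w.1 = L.em w.2}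

/-- distance of two pairs -/
def dd {L : LC Γ X B} {Q : Set X} (w w' : WW L Q) : ℝ := dist w.1.1 w'.1.1 + dist w.1.2 w'.1.2

theorem dd_eq {L : LC Γ X B} {Q : Set X} (w w' : WW L Q) :
    dd w w' = dist w.1.1 w'.1.1 + dist w.1.2 w'.1.2 := rfl

theorem dd_nonneg {L : LC Γ X B} {Q : Set X} (w w' : WW L Q) : 0 ≤ dd w w' :=
  add_nonneg dist_nonneg dist_nonneg

/-- constructor -/
def mkW {L : LC Γ X B} {Q : Set X} (x y : X) (h1 : x ∈ Q) (h2 : y ∈ Q) (h3 : L.em x = L.em y) :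
    WW L Q := ⟨(x, y), h1, h2, h3⟩

theorem dd_mk {L : LC Γ X B} {Q : Set X} {x y x' y' : X} (h1 : x ∈ Q) (h2 : y ∈ Q)
    (h3 : L.em x = L.em y) (h1' : x' ∈ Q) (h2' : y' ∈ Q) (h3' : L.em x' = L.em y') :
    dd (mkW x y h1 h2 h3) (mkW x' y' h1' h2' h3') = dist x x' + dist y y' := rfl

/-- the admissible points -/
def PP (Q : Set X) (w w' : WW L Q) : Set E2 := {u | (w.1, u) ∈ L.Cs Q 2 ∧ (w'.1, u) ∈ L.Cs Q 2}

include hinv he hem

/-- HÖLDER on a compact set -/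
theorem holder_cpt {Q : Set X} (hQ : IsCompact Q)
    (H1 : ∀ S₀ : ℝ, ∃ C α : ℝ, 0 < α ∧ ∀ y ∈ Q, ∀ y' ∈ Q, ∀ s ∈ Icc (-S₀) S₀,
      ∀ v ∈ closedBall (0 : E2) 3, ‖S.A y (s, v) - S.A y' (s, v)‖ ≤ C * dist y y' ^ α) (k : ℕ) :
    ∃ C α : ℝ, 0 ≤ C ∧ 0 < α ∧ ∀ x y x' y' u, ((x, y), u) ∈ L.Cs Q 2 →
      ((x', y'), u) ∈ L.Cs Q 2 →
      ‖iteratedFDeriv ℝ k (tau L.e x y) u - iteratedFDeriv ℝ k (tau L.e x' y') u‖ ≤
        C * (dist x x' + dist y y') ^ α := by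
  obtain ⟨C₀, α₀, δ₀, hα₀, hδ₀, h0⟩ := holder_zero L S hinv he hem hQ H1
  obtain ⟨t, ht, hrad⟩ := exists_radius L hQ
  choose M hM using fun k => L.bound_Cs hQ (by norm_num : (5 / 2 : ℝ) < 3) k
  have hball : ∀ w w' : WW L Q, ∀ u ∈ PP L Q w w', ball u t ⊆ Vs L w.1 ∧ ball u t ⊆ Vs L w'.1 :=
    fun w w' u hu => ⟨hrad (w.1, u) hu.1, hrad (w'.1, u) hu.2⟩
  have hC0 : ∀ w w' : WW L Q, dd w w' / δ₀ ≤ 1 → ∀ u ∈ PP L Q w w', ∀ v ∈ ball u t,
      ‖tau L.e w.1.1 w.1.2 v - tau L.e w'.1.1 w'.1.2 v‖ ≤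
        (C₀ * δ₀ ^ α₀) * (dd w w' / δ₀) ^ α₀ := by
    intro w w' hd u hu v hv
    have h1 := (hball w w' u hu).1 hv
    have h2 := (hball w w' u hu).2 hv
    have h3 := h0 w.1.1 w.1.2 w'.1.1 w'.1.2 v (Vs_sub L w.2.1 w.2.2.1 w.2.2.2 h1)
      (Vs_sub L w'.2.1 w'.2.2.1 w'.2.2.2 h2) (by
        rw [div_le_one hδ₀, dd_eq] at hd
        exact hd)
    refine h3.trans (le_of_eq ?_)
    rw [Real.div_rpow (dd_nonneg w w') hδ₀.le, mul_assoc,
      mul_div_cancel₀ _ (Real.rpow_pos_of_pos hδ₀ _).ne', dd_eq]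
  obtain ⟨C', α', hC', hα', hf⟩ := holder_all (W := WW L Q) (fun w => tau L.e w.1.1 w.1.2)
    (fun w w' => dd w w' / δ₀)
    (fun w => Vs L w.1) (PP L Q) M (t := t) (C := C₀ * δ₀ ^ α₀) (α := α₀) ht hα₀
    (fun w w' => div_nonneg (dd_nonneg w w') hδ₀.le)
    (fun w => isOpen_Vs L w.2.2.2)
    (fun w => (L.tau_smooth _ _ w.2.2.2).mono fun u hu => hu.2.1)
    (fun w k u hu => hM k (w.1, u) (Vs_sub L w.2.1 w.2.2.1 w.2.2.2 hu))
    (fun w w' _ u hu => hball w w' u hu)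
    (fun w w' u hu => ⟨(hball w w' u hu).1 (mem_ball_self ht),
      (hball w w' u hu).2 (mem_ball_self ht)⟩) hC0 k
  refine ⟨C' * (1 / δ₀) ^ α', α', by positivity, hα', fun x y x' y' u hp hp' => ?_⟩
  have h1 := hf (mkW x y hp.1 hp.2.1 hp.2.2.1) (mkW x' y' hp'.1 hp'.2.1 hp'.2.2.1) u ⟨hp, hp'⟩
  rw [dd_mk, div_eq_mul_one_div, Real.mul_rpow (add_nonneg dist_nonneg dist_nonneg)
    (by positivity)] at h1
  refine h1.trans (le_of_eq ?_)
  ring

/-- **THE FIELD `holder` OF `Leaf`.** -/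
theorem holder (H1 : ∀ Q : Set X, IsCompact Q → ∀ S₀ : ℝ, ∃ C α : ℝ, 0 < α ∧ ∀ y ∈ Q, ∀ y' ∈ Q,
      ∀ s ∈ Icc (-S₀) S₀, ∀ v ∈ closedBall (0 : E2) 3,
        ‖S.A y (s, v) - S.A y' (s, v)‖ ≤ C * dist y y' ^ α) :
    ∀ (k : ℕ) (c : ℝ), ∃ C α : ℝ, 0 < α ∧ ∀ x y x' y', L.em x = L.em y → L.em x' = L.em y' →
      |L.lv x - L.lv y| ≤ c → |L.lv x' - L.lv y'| ≤ c → ∀ u ∈ closedBall (0 : E2) 2,
      L.e x u ∈ L.e y '' closedBall 0 2 → L.e x' u ∈ L.e y' '' closedBall 0 2 →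
      ‖iteratedFDeriv ℝ k (tau L.e x y) u - iteratedFDeriv ℝ k (tau L.e x' y') u‖
        ≤ C * (dist x x' + dist y y') ^ α := by
  intro k c
  obtain ⟨C₀, hC₀⟩ := L.near c
  obtain ⟨K, hK, hcov⟩ := L.cocompact
  set Q : Set X := cthickening (|C₀| + 3) K with hQd
  have hQ : IsCompact Q := hK.cthickening
  obtain ⟨C, α, hC, hα, hmain⟩ := holder_cpt L S hinv he hem hQ (H1 Q hQ) k
  obtain ⟨M, hM⟩ := L.bound_Cs hQ (by norm_num : (2 : ℝ) < 3) k
  have h23 : closedBall (0 : E2) 2 ⊆ closedBall 0 3 := closedBall_subset_closedBall (by norm_num)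
  -- points near `K`
  have hin : ∀ z z' : X, z ∈ K → dist z' z ≤ |C₀| + 3 → z' ∈ Q := fun z z' hz hd =>
    mem_cthickening_of_dist_le z' z _ K hz hd
  have hdist : ∀ x y, L.em x = L.em y → |L.lv x - L.lv y| ≤ c → ∀ u ∈ closedBall (0 : E2) 2,
      L.e x u ∈ L.e y '' closedBall 0 2 → dist x y ≤ |C₀| := fun x y h1 h2 u hu h3 =>
    (hC₀ x y h1 h2 ⟨L.e x u, ⟨u, h23 hu, rfl⟩, image_mono h23 h3⟩).trans (le_abs_self _)
  have himg : ∀ (g : Γ) x y, ∀ u ∈ closedBall (0 : E2) 2, L.e x u ∈ L.e y '' closedBall 0 2 →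
      L.e (g • x) u ∈ L.e (g • y) '' closedBall 0 2 := by
    rintro g x y u hu ⟨v, hv, hv'⟩
    refine ⟨v, hv, ?_⟩
    rw [L.e_smul g x u (h23 hu), L.e_smul g y v (h23 hv), hv']
  have hdom : ∀ x y, ∀ u ∈ closedBall (0 : E2) 2, L.e x u ∈ L.e y '' closedBall 0 2 →
      u ∈ dom L.e x y := fun x y u hu h =>
    ⟨closedBall_subset_ball (by norm_num) hu, image_mono (closedBall_subset_ball (by norm_num)) h⟩
  -- one pair, moved to `Q`
  have hone : ∀ x y, L.em x = L.em y → |L.lv x - L.lv y| ≤ c → ∀ u ∈ closedBall (0 : E2) 2,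
      L.e x u ∈ L.e y '' closedBall 0 2 → ‖iteratedFDeriv ℝ k (tau L.e x y) u‖ ≤ M := by
    intro x y h1 h2 u hu h3
    obtain ⟨g, hg⟩ := hcov x
    have h4 := hdist x y h1 h2 u hu h3
    have hx : g • x ∈ Q := hin _ _ hg (by rw [dist_self]; positivity)
    have hy : g • y ∈ Q := hin _ _ hg (by
      rw [dist_comm, dist_smul]; linarith)
    have h5 := hM ((g • x, g • y), u) ⟨hx, hy, by
      show L.em (g • x) = L.em (g • y)
      rw [L.em_smul, L.em_smul, h1], hu, himg g x y u hu h3⟩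
    rwa [L.iter_smul (hdom x y u hu h3)] at h5
  refine ⟨max C (2 * |M|), α, hα, ?_⟩
  intro x y x' y' h1 h1' h2 h2' u hu h3 h3'
  have hd0 : 0 ≤ dist x x' + dist y y' := add_nonneg dist_nonneg dist_nonneg
  have hdα : 0 ≤ (dist x x' + dist y y') ^ α := Real.rpow_nonneg hd0 _
  rcases le_or_gt (dist x x' + dist y y') 1 with hle | hgt
  · obtain ⟨g, hg⟩ := hcov x
    have h4 := hdist x y h1 h2 u hu h3
    have hxx : dist x x' ≤ 1 := by linarith [dist_nonneg (x := y) (y := y')]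
    have hyy : dist y y' ≤ 1 := by linarith [dist_nonneg (x := x) (y := x')]
    have hx : g • x ∈ Q := hin _ _ hg (by rw [dist_self]; positivity)
    have hy : g • y ∈ Q := hin _ _ hg (by rw [dist_comm, dist_smul]; linarith)
    have hx' : g • x' ∈ Q := hin _ _ hg (by
      rw [dist_comm, dist_smul]; linarith [abs_nonneg C₀])
    have hy' : g • y' ∈ Q := hin _ _ hg (by
      rw [dist_comm, dist_smul]
      linarith [dist_triangle x y y'])
    have h5 := hmain (g • x) (g • y) (g • x') (g • y') u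
      ⟨hx, hy, by
        show L.em (g • x) = L.em (g • y)
        rw [L.em_smul, L.em_smul, h1], hu, himg g x y u hu h3⟩
      ⟨hx', hy', by
        show L.em (g • x') = L.em (g • y')
        rw [L.em_smul, L.em_smul, h1'], hu, himg g x' y' u hu h3'⟩
    rw [L.iter_smul (hdom x y u hu h3), L.iter_smul (hdom x' y' u hu h3'), dist_smul,
      dist_smul] at h5
    refine h5.trans ?_
    gcongr
    exact le_max_left _ _
  · have h5 := hone x y h1 h2 u hu h3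
    have h6 := hone x' y' h1' h2' u hu h3'
    have h7 : (1 : ℝ) ≤ (dist x x' + dist y y') ^ α := Real.one_le_rpow hgt.le hα.le
    calc ‖iteratedFDeriv ℝ k (tau L.e x y) u - iteratedFDeriv ℝ k (tau L.e x' y') u‖
        ≤ ‖iteratedFDeriv ℝ k (tau L.e x y) u‖ + ‖iteratedFDeriv ℝ k (tau L.e x' y') u‖ :=
          norm_sub_le _ _
      _ ≤ 2 * |M| := by linarith [le_abs_self M]
      _ ≤ max C (2 * |M|) * 1 := by rw [mul_one]; exact le_max_right _ _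
      _ ≤ _ := by gcongr

end Vale.Agent.P207.N3.H803
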