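import Vale.Agent.P207.N3.H803.Eng

/-!
N3-P1d (helper803): the solutions of the slope equation are the curves of the graph (hypothesis
`hode` of `exists_maps`), from the existence of the graph in the past and uniqueness.
-/

open Set Filter Topology Metric
open scoped ContDiff NNReal

noncomputable section

namespace Vale.Agent.P207.N3.H803

section

variable {K : Type*} [TopologicalSpace K] [CompactSpace K] {E : Type} [NormedAddCommGroup E]
  [InnerProductSpace ℝ E] [FiniteDimensional ℝ E]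

/-- uniform Lipschitz constants on smaller balls -/
theorem exists_lip (g : K → E → E) {ε r : ℝ} (hg : JC g (univ ×ˢ ball 0 ε)) (hr : r < ε) :
    ∃ C : ℝ≥0, ∀ x, LipschitzOnWith C (g x) (closedBall 0 r) := by
  have hc : IsCompact ((univ : Set K) ×ˢ closedBall (0 : E) r) :=
    isCompact_univ.prod (isCompact_closedBall _ _)
  have hsub : (univ : Set K) ×ˢ closedBall (0 : E) r ⊆ univ ×ˢ ball 0 ε :=
    prod_mono_right (closedBall_subset_ball hr)
  obtain ⟨D, hD⟩ := hc.exists_bound_of_continuousOn (hg.fderiv.continuousOn.mono hsub)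
  refine ⟨Real.toNNReal |D|, fun x => ?_⟩
  refine (convex_closedBall (0 : E) r).lipschitzOnWith_of_nnnorm_fderiv_le (𝕜 := ℝ)
    (fun u hu => hg.differentiableAt (p := (x, u)) (hsub ⟨mem_univ _, hu⟩)) fun u hu => ?_
  rw [← NNReal.coe_le_coe, coe_nnnorm, Real.coe_toNNReal _ (abs_nonneg _)]
  exact (hD (x, u) ⟨mem_univ _, hu⟩).trans (le_abs_self _)

/-- **(ODE)**: solutions of the slope equation on `[0, t]` run on the graph. -/
theorem ode_of_graph {X B : Type*} (φ : ℝ → X → X) (pr : X → K) (g : K → E → E) {ε δ : ℝ}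
    (hφ0 : ∀ x, φ 0 x = x) (hφ : ∀ s t x, φ (s + t) x = φ s (φ t x))
    (hδ : δ < ε) (hg : JC g (univ ×ˢ ball 0 ε)) (e' : X → E → B)
    (hgr : ∀ x, ∀ u ∈ ball (0 : E) ε, ∃ v : ℝ → E, v 0 = u ∧ ∀ t ≤ 0, v t ∈ ball (0 : E) ε ∧
      HasDerivWithinAt v (g (pr (φ t x)) (v t)) (Iic 0) t ∧ e' (φ t x) (v t) = e' x u) :
    ∀ x, ∀ t ≥ 0, ∀ u : ℝ → E,
      (∀ s ∈ Icc 0 t, HasDerivWithinAt u (g (pr (φ s x)) (u s)) (Icc 0 t) s) →
      (∀ s ∈ Icc 0 t, ‖u s‖ ≤ δ) → e' x (u 0) = e' (φ t x) (u t) := by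
  intro x t ht u hu hub
  have htt : t ∈ Icc 0 t := ⟨ht, le_rfl⟩
  have h0t : (0 : ℝ) ∈ Icc 0 t := ⟨le_rfl, ht⟩
  have hutb : u t ∈ ball (0 : E) ε := by
    rw [mem_ball_zero_iff]
    exact (hub t htt).trans_lt hδ
  obtain ⟨v, hv0, hv⟩ := hgr (φ t x) (u t) hutb
  -- the shifted curve
  set w : ℝ → E := fun s => v (s - t) with hw
  have hflow : ∀ s, φ (s - t) (φ t x) = φ s x := fun s => by
    rw [← hφ, sub_add_cancel]
  have hwd : ∀ s ≤ t, HasDerivWithinAt w (g (pr (φ s x)) (w s)) (Iic t) s := by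
    intro s hs
    have h1 := (hv (s - t) (by linarith)).2.1
    rw [hflow] at h1
    have h2 : HasDerivWithinAt (fun s : ℝ => s - t) 1 (Iic t) s :=
      (hasDerivAt_id s).sub_const t |>.hasDerivWithinAt
    have h3 := h1.scomp s h2 (fun r hr => by
      have : r ≤ t := hr
      show r - t ≤ 0
      linarith)
    rw [one_smul] at h3
    exact h3
  have hwc : ContinuousOn w (Icc 0 t) := fun s hs =>
    ((hwd s hs.2).mono fun r hr => hr.2).continuousWithinAt
  have huc : ContinuousOn u (Icc 0 t) := fun s hs => (hu s hs).continuousWithinAt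
  -- a smaller ball
  obtain ⟨s₀, hs₀, hmax⟩ := isCompact_Icc.exists_isMaxOn ⟨0, h0t⟩ hwc.norm
  have hwb : ∀ s ∈ Icc 0 t, ‖w s‖ ≤ ‖w s₀‖ := fun s hs => hmax hs
  have hw₀ : ‖w s₀‖ < ε := by
    have := (hv (s₀ - t) (by linarith [hs₀.2])).1
    rwa [mem_ball_zero_iff] at this
  set r : ℝ := max δ ‖w s₀‖ with hr
  have hrε : r < ε := max_lt hδ hw₀
  obtain ⟨C, hC⟩ := exists_lip g hg hrε
  have heq : EqOn u w (Icc 0 t) := by
    refine ODE_solution_unique_of_mem_Icc_left (v := fun s => g (pr (φ s x)))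
      (s := fun _ => closedBall (0 : E) r) (K := C) (fun s _ => hC _) huc ?_ ?_ hwc ?_ ?_ ?_
    · intro s hs
      have h1 := hu s ⟨hs.1.le, hs.2⟩
      refine (h1.mono_of_mem_nhdsWithin ?_)
      refine Filter.mem_of_superset (Ioc_mem_nhdsLE hs.1) fun r hr => ⟨hr.1.le, hr.2.trans hs.2⟩
    · intro s hs
      rw [mem_closedBall_zero_iff]
      exact (hub s ⟨hs.1.le, hs.2⟩).trans (le_max_left _ _)
    · intro s hs
      exact (hwd s hs.2).mono (Iic_subset_Iic.2 hs.2)
    · intro s hs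
      rw [mem_closedBall_zero_iff]
      exact (hwb s ⟨hs.1.le, hs.2⟩).trans (le_max_right _ _)
    · simp only [hw, sub_self, hv0]
  have h5 : u 0 = v (-t) := by
    have := heq h0t
    simp only [hw, zero_sub] at this
    exact this
  have h6 := (hv (-t) (by linarith)).2.2
  rw [← h5] at h6
  have h7 : φ (-t) (φ t x) = x := by rw [← hφ, neg_add_cancel, hφ0]
  rwa [h7] at h6

end

end Vale.Agent.P207.N3.H803
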