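import Vale.Agent.P207.N3.H803.OdeIn
import Vale.Agent.P207.N3.H803.Hold2
import Vale.Agent.P207.N3.H76.Asm1
import Vale.Agent.P207.N3.H459.GeoAsy

/-!
N3-P1d (helper803): the fields `engulf`, `contract`, `holder` of `Leaf` for the charts `G.e o r₀`
over 76's `Geo`, from the slope equation.
-/

set_option linter.unusedSectionVars false

open Set Filter Topology Metric Real
open scoped ContDiff
open Vale.Agent.P207.N3.H728 Vale.Agent.P207.N3.H709 Vale.Agent.P207.N3.H76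

noncomputable section

namespace Vale.Agent.P207.N3.H803

variable {Γ X Y : Type} [Group Γ] [MetricSpace X] [ProperSpace X] [MetricSpace Y]
  [ProperSpace Y] [MulAction Γ X] [MulAction Γ Y] [IsIsometricSMul Γ X] [IsIsometricSMul Γ Y]

/-- the slope equation `v' = g (φ_t x) v` of the leaves, over a compact quotient `K` of the space
of frames -/
structure Slp (G : Geo Γ X Y) (K : Type) [TopologicalSpace K] [CompactSpace K] where
  φK : ℝ → K → K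
  φK_cont : Continuous fun p : ℝ × K => φK p.1 p.2
  pr : X → K
  pr_φ : ∀ t x, pr (G.φ t x) = φK t (pr x)
  g : K → E2 → E2
  ε : ℝ
  ε_pos : 0 < ε
  g_jc : JC g (univ ×ˢ ball 0 ε)
  g_zero : ∀ x, g x 0 = 0
  χ : ℝ
  χ_pos : 0 < χ
  g_der : ∀ x a, χ * ‖a‖ ^ 2 ≤ inner ℝ (fderiv ℝ (g x) 0 a) a
  /-- the graphs over the axis are the geodesics from `em x` -/
  graph : ∀ x, ∀ u ∈ ball (0 : E2) ε, ∃ (v : ℝ → E2) (θ : ℝ → ℝ) (y : X) (ζ : E3),
    v 0 = u ∧ θ 0 = 0 ∧ ContinuousOn θ (Iic 0) ∧ G.ft y = G.E x (pk 0 u) ∧ ‖ζ‖ = 1 ∧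
    ∀ t ≤ 0, θ t ≤ 0 ∧ v t ∈ ball (0 : E2) ε ∧
      HasDerivWithinAt v (g (pr (G.φ t x)) (v t)) (Iic 0) t ∧
      G.E (G.φ t x) (pk 0 (v t)) = G.E y (θ t • ζ)

variable {G : Geo Γ X Y} {K : Type} [TopologicalSpace K] [CompactSpace K] (P : Slp G K) (o : Y)

/-- the end point of the geodesic from `em x` through the point `u` of the disc at `x` -/
def e' (G : Geo Γ X Y) (o : Y) (x : X) (u : E2) : Bd o := G.had.line' (G.em o x) (G.E x (pk 0 u))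

include P in
theorem Slp.line_graph : ∀ x, ∀ u ∈ ball (0 : E2) P.ε, ∃ v : ℝ → E2, v 0 = u ∧ ∀ t ≤ 0,
    v t ∈ ball (0 : E2) P.ε ∧ HasDerivWithinAt v (P.g (P.pr (G.φ t x)) (v t)) (Iic 0) t ∧
      e' G o (G.φ t x) (v t) = e' G o x u := by
  intro x u hu
  obtain ⟨v, θ, y, ζ, h1, h2, h3, h4, h5, h6⟩ := P.graph x u hu
  refine ⟨v, h1, fun t ht => ⟨(h6 t ht).2.1, (h6 t ht).2.2.1, ?_⟩⟩
  have h7 := H459.psi_of_graph G o (x := x) (y := y) h5 (u := fun t => pk 0 (v t)) (δ := P.ε)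
    h2 h3 (fun t ht => (h6 t ht).1) (fun t ht => by
      rw [norm_pk_zero_left]
      have := (h6 t ht).2.1
      rw [mem_ball_zero_iff] at this
      exact this.le) (fun t ht => (h6 t ht).2.2.2) (θ t)
  unfold e'
  rw [G.em_φ, (h6 t ht).2.2.2, ← h7, h4]
  exact ((G.had.line'_iff (G.em o x) _ _).2 ⟨θ t, rfl⟩).symm

/-- the backward maps of the leaves -/
theorem Slp.exists_maps {χ' : ℝ} (h0 : 0 ≤ χ') (h1 : χ' < P.χ) :
    ∃ ε, 0 < ε ∧ ∃ T : ℝ → X → E2 → E2, ∀ x, ∀ t ≥ 0, ∀ u ∈ closedBall (0 : E2) ε,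
      e' G o (G.φ t x) u = e' G o x (T t x u) ∧ ‖T t x u‖ ≤ Real.exp (-χ' * t) * ‖u‖ ∧
      ∀ v ∈ closedBall (0 : E2) ε, ‖T t x u - T t x v‖ ≤ Real.exp (-χ' * t) * ‖u - v‖ :=
  H803.exists_maps G.φ P.pr P.φK P.φK_cont P.pr_φ P.g P.ε_pos (half_pos P.ε_pos) P.g_jc P.g_zero
    P.g_der h0 h1 (e' G o)
    (ode_of_graph G.φ P.pr P.g G.φ_zero G.φ_add (half_lt_self P.ε_pos) P.g_jc (e' G o)
      (P.line_graph o))

section LCs

variable {V : Type} [NormedAddCommGroup V] [NormedSpace ℝ V] [FiniteDimensional ℝ V] {j : Y ≃ₜ V}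
  {o : Y} (S : G.Sm3 o j) {r₀ : ℝ} (hr : (G.pre S).Small r₀) (hinv : H459.InvThm)

/-- the action of the group on the boundary -/
@[reducible] def bdA (G : Geo Γ X Y) (o : Y) : MulAction Γ (Bd o) := bdAction G.had o

theorem bdC (G : Geo Γ X Y) (o : Y) : @ContinuousConstSMul Γ (Bd o) inferInstance (bdA G o).toSMul :=
  bdAction_continuous G.had o

/-- the fields of `Leaf` without rates, over `Geo` and `Sm3` -/
def lc : @LC Γ X (Bd o) _ _ _ _ _ _ _ _ (bdA G o) (bdC G o) :=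
  letI := bdA G o
  haveI := bdC G o
  { φ := G.φ
    φ_add := G.φ_add
    φ_cont := G.φ_cont
    φ_smul := fun g t x => G.φ_smul t g x
    em := G.em o
    em_cont := G.em_cont o
    em_smul := G.em_smul o
    em_φ := G.em_φ o
    lv := G.lv o
    lv_cont := G.lv_cont o
    lv_smul := G.lv_smul o
    cocompact := G.cocompact
    e := G.e o r₀
    e_cont := G.e_cont S hr
    e_inj := G.e_inj S hr
    e_open := G.e_open S hr hinv
    e_smul := fun g x u _ => G.e_smul' r₀ g x u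
    near := G.near S hr
    tau_smooth := G.tau_smooth S hr hinv
    tau_cont := G.tau_cont S hr hinv }

theorem lc_locExt : @LC.LocExt Γ X (Bd o) _ _ _ _ _ _ _ _ (bdA G o) (bdC G o) (lc S hr hinv) :=
  letI := bdA G o
  haveI := bdC G o
  locExt_of (G.slc S hr) (lc S hr hinv) hinv (G.slc_e S hr).symm rfl

end LCs

section final

variable {V : Type} [NormedAddCommGroup V] [NormedSpace ℝ V] [FiniteDimensional ℝ V] {j : Y ≃ₜ V}
  {o : Y}

include P in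
/-- **THE FIELDS `engulf` AND `contract` OF `Leaf`**, for all small scales `r₀`. -/
theorem rates (S : G.Sm3 o j) (hinv : H459.InvThm) : ∃ r₁ > 0, ∀ r₀ : ℝ, (G.pre S).Small r₀ →
    r₀ ≤ r₁ → ∃ t₁ χ : ℝ, 0 < t₁ ∧ 0 < χ ∧
      (∀ x, ∀ t ≥ t₁, G.e o r₀ (G.φ t x) '' closedBall 0 3 ⊆ G.e o r₀ x '' ball 0 1) ∧
      ∀ k : ℕ, 1 ≤ k → ∃ C, ∀ x, ∀ t ≥ t₁, ∀ u ∈ ball (0 : E2) 3,
        ‖iteratedFDeriv ℝ k (tau (G.e o r₀) (G.φ t x) x) u‖ ≤ C * Real.exp (-χ * t) := by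
  have hχ : 0 < P.χ / 2 := half_pos P.χ_pos
  obtain ⟨ε, hε, T, hT⟩ := P.exists_maps o hχ.le (half_lt_self P.χ_pos)
  refine ⟨ε / 3, by positivity, fun r₀ hr hr1 => ?_⟩
  have h3 : r₀ * 3 ≤ ε := by linarith
  obtain ⟨h4, _, h6⟩ := engulf_of_maps G.φ (e' G o) hχ hr.pos h3 T hT (G.e o r₀)
    (fun _ _ _ => rfl) (G.e_inj S hr) (t₁ := 2 / (P.χ / 2)) le_rfl
  refine ⟨2 / (P.χ / 2), P.χ / 2, by positivity, hχ, h4, ?_⟩
  let _ := bdA G o
  have _ := bdC G o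
  exact (lc S hr hinv).contract hχ (by positivity) (lc_locExt S hr hinv) h4 ⟨1, h6⟩

/-- **THE FIELD `holder` OF `Leaf`**, from the Hölder dependence of the tubes. -/
theorem holder_geo (S : G.Sm3 o j) (hinv : H459.InvThm) {r₀ : ℝ} (hr : (G.pre S).Small r₀)
    (H1 : ∀ Q : Set X, IsCompact Q → ∀ S₀ : ℝ, ∃ C α : ℝ, 0 < α ∧ ∀ y ∈ Q, ∀ y' ∈ Q,
      ∀ s ∈ Icc (-S₀) S₀, ∀ v ∈ closedBall (0 : E2) 3,
        ‖G.A o j y (s, r₀ • v) - G.A o j y' (s, r₀ • v)‖ ≤ C * dist y y' ^ α) :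
    ∀ (k : ℕ) (c : ℝ), ∃ C α : ℝ, 0 < α ∧ ∀ x y x' y', G.em o x = G.em o y →
      G.em o x' = G.em o y' →
      |G.lv o x - G.lv o y| ≤ c → |G.lv o x' - G.lv o y'| ≤ c → ∀ u ∈ closedBall (0 : E2) 2,
      G.e o r₀ x u ∈ G.e o r₀ y '' closedBall 0 2 →
      G.e o r₀ x' u ∈ G.e o r₀ y' '' closedBall 0 2 →
      ‖iteratedFDeriv ℝ k (tau (G.e o r₀) x y) u - iteratedFDeriv ℝ k (tau (G.e o r₀) x' y') u‖
        ≤ C * (dist x x' + dist y y') ^ α :=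
  letI := bdA G o
  haveI := bdC G o
  holder (lc S hr hinv) (G.slc S hr) hinv (G.slc_e S hr).symm rfl H1

end final

end Vale.Agent.P207.N3.H803
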