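import Vale.Agent.P207.N3.H391.JAct2
import Vale.Agent.P207.N3.H387.Tri

/-!
# P207, line N3, P3E: exact resonance of the linear part of the action on jets

`Ni` is the local inverse of the map of the invariant axis, in normal form. The jets of
`Sf v ∘ Ni` are `θ_a v_a` plus exactly resonant terms of lower order.
-/

open Set Filter Topology Metric MeasureTheory Asymptotics InnerProductSpace
open scoped ContDiff Gradient RealInnerProductSpace

noncomputable section

namespace Vale.Agent.P207.N3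

namespace H803

open Jet H387

/-- the jets of the monomials -/
lemma jet_mono (i j a b : ℕ) : jet (mono i j) a b = if i = a ∧ j = b then (1 : ℝ) else 0 := by
  have h : mono i j = tay (i + j + a + b + 1)
      (fun i' j' => if i = i' ∧ j = j' then (1 : ℝ) else 0) := by
    ext q
    rw [tay_eq_sum, Finset.sum_eq_single (i, j)]
    · simp
    · rintro ⟨i', j'⟩ _ hne
      have : ¬ (i = i' ∧ j = j') := by
        rintro ⟨rfl, rfl⟩
        exact hne rfl
      simp [this]
    · intro h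
      exfalso
      apply h
      simp only [Finset.mem_filter, Finset.mem_product, Finset.mem_range]
      omega
  rw [h, jet_tay _ _ _ _ (by omega)]

/-- the coefficients of the expansion -/
def co (m₁ m₂ c : ℝ) (k i j l : ℕ) : ℝ :=
  (i.choose l : ℝ) * c ^ l * m₁ ^ (i - l) * m₂ ^ j * ((i - l).factorial * (j + k * l).factorial) /
    (i.factorial * j.factorial)

lemma mono_tri (m₁ m₂ c : ℝ) (k i j : ℕ) (q : E2) :
    mono i j !₂[m₁ * q 0 + c * q 1 ^ k, m₂ * q 1]
      = ∑ l ∈ Finset.range (i + 1), co m₁ m₂ c k i j l * mono (i - l) (j + k * l) q := by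
  have e : mono i j !₂[m₁ * q 0 + c * q 1 ^ k, m₂ * q 1]
      = (c * q 1 ^ k + m₁ * q 0) ^ i * (m₂ * q 1) ^ j / (i.factorial * j.factorial) := by
    simp [mono, add_comm]
  rw [e, add_pow, Finset.sum_mul, Finset.sum_div]
  refine Finset.sum_congr rfl fun l hl => ?_
  unfold co mono
  have h1 : ((i - l).factorial : ℝ) ≠ 0 := by positivity
  have h2 : ((j + k * l).factorial : ℝ) ≠ 0 := by positivity
  have h3 : (i.factorial : ℝ) ≠ 0 := by positivity
  have h4 : (j.factorial : ℝ) ≠ 0 := by positivity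
  rw [pow_add, pow_mul]
  field_simp
  rw [mul_pow, mul_pow, mul_pow]
  ring

lemma jet_mono_tri {m₁ m₂ c : ℝ} {k : ℕ} {Ni : E2 → E2}
    (hNi : ∀ᶠ q in 𝓝 (0 : E2), Ni q = !₂[m₁ * q 0 + c * q 1 ^ k, m₂ * q 1]) (i j a b : ℕ) :
    jet (fun q => mono i j (Ni q)) a b = ∑ l ∈ Finset.range (i + 1),
      co m₁ m₂ c k i j l * if i - l = a ∧ j + k * l = b then (1 : ℝ) else 0 := by
  have h1 : (fun q => mono i j (Ni q)) =ᶠ[𝓝 0] fun q =>
      ∑ l ∈ Finset.range (i + 1), co m₁ m₂ c k i j l * mono (i - l) (j + k * l) q := by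
    filter_upwards [hNi] with q hq
    rw [hq, mono_tri]
  rw [jet_congr h1, jet_sum _ _ _ fun l _ => (mono_smooth _ _).contDiffAt]
  refine Finset.sum_congr rfl fun l _ => ?_
  rw [jet_mono]

/-- diagonal coefficient -/
lemma jet_mono_diag {m₁ m₂ c : ℝ} {k : ℕ} {Ni : E2 → E2}
    (hNi : ∀ᶠ q in 𝓝 (0 : E2), Ni q = !₂[m₁ * q 0 + c * q 1 ^ k, m₂ * q 1]) (i j : ℕ) :
    jet (fun q => mono i j (Ni q)) i j = m₁ ^ i * m₂ ^ j := by
  rw [jet_mono_tri hNi, Finset.sum_eq_single 0]
  · have h3 : (i.factorial : ℝ) ≠ 0 := by positivity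
    have h4 : (j.factorial : ℝ) ≠ 0 := by positivity
    simp [co]
    field_simp
  · intro l hl hl0
    rw [Finset.mem_range] at hl
    have : ¬ (i - l = i ∧ j + k * l = j) := by omega
    rw [if_neg this, mul_zero]
  · intro h
    exact absurd (Finset.mem_range.2 (by omega)) h

/-- **exact resonance** of the other coefficients -/
lemma jet_mono_res {m₁ m₂ c : ℝ} {k : ℕ} (hc : c ≠ 0 → 2 ≤ k ∧ m₁ = m₂ ^ k) {Ni : E2 → E2}
    (hNi : ∀ᶠ q in 𝓝 (0 : E2), Ni q = !₂[m₁ * q 0 + c * q 1 ^ k, m₂ * q 1]) {b a : ℕ × ℕ}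
    (hab : b ≠ a) (h : jet (fun q => mono b.1 b.2 (Ni q)) a.1 a.2 ≠ 0) :
    b.1 + b.2 < a.1 + a.2 ∧ tht m₁ m₂ b = tht m₁ m₂ a := by
  rw [jet_mono_tri hNi] at h
  obtain ⟨l, hl, h1⟩ := Finset.exists_ne_zero_of_sum_ne_zero h
  rw [Finset.mem_range] at hl
  have h2 : b.1 - l = a.1 ∧ b.2 + k * l = a.2 := by
    by_contra h2
    rw [if_neg h2, mul_zero] at h1
    exact h1 rfl
  have hl0 : l ≠ 0 := by
    rintro rfl
    apply hab
    ext
    · simpa using h2.1
    · simpa using h2.2
  have hcne : c ≠ 0 := by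
    rintro rfl
    apply h1
    unfold co
    rw [zero_pow hl0]
    simp
  obtain ⟨hk, hm⟩ := hc hcne
  constructor
  · have h3 : 2 * l ≤ k * l := Nat.mul_le_mul_right l hk
    omega
  · unfold tht
    obtain ⟨n, hn⟩ : ∃ n, b.1 = a.1 + n ∧ n = l := ⟨l, by omega, rfl⟩
    rw [← h2.2, hn.1, hn.2, hm]
    ring

/-- **(R1)** -/
theorem res_tri {K : ℕ} {m₁ m₂ c : ℝ} {k : ℕ} (hc : c ≠ 0 → 2 ≤ k ∧ m₁ = m₂ ^ k) {Ni : E2 → E2}
    (hNi : ∀ᶠ q in 𝓝 (0 : E2), Ni q = !₂[m₁ * q 0 + c * q 1 ^ k, m₂ * q 1]) :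
    ∃ nl : Ix K → Ix K → ℝ, (∀ a b, nl a b ≠ 0 → b.1.1 + b.1.2 < a.1.1 + a.1.2) ∧
      (∀ a b, nl a b ≠ 0 → tht m₁ m₂ b.1 = tht m₁ m₂ a.1) ∧
      ∀ (a : Ix K) (v : Ix K → ℝ), jet (fun q => Sf v (Ni q)) a.1.1 a.1.2
        = tht m₁ m₂ a.1 * v a + ∑ b, nl a b * v b := by
  classical
  have hs : ContDiffAt ℝ ∞ Ni 0 := by
    have h1 : ContDiffAt ℝ ∞ (fun q : E2 => (!₂[m₁ * q 0 + c * q 1 ^ k, m₂ * q 1] : E2)) 0 := by
      rw [smooth_iff]
      constructor
      · exact (contDiff_const.mul (coord_smooth 0)).contDiffAt.add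
          (contDiff_const.mul ((coord_smooth 1).pow k)).contDiffAt
      · exact (contDiff_const.mul (coord_smooth 1)).contDiffAt
    exact h1.congr_of_eventuallyEq hNi
  refine ⟨fun a b => if b = a then 0 else jet (fun q => mono b.1.1 b.1.2 (Ni q)) a.1.1 a.1.2,
    fun a b h => ?_, fun a b h => ?_, fun a v => ?_⟩
  · by_cases hab : b = a
    · simp [hab] at h
    · simp only [hab, if_false] at h
      exact (jet_mono_res hc hNi (fun h' => hab (Subtype.ext h')) h).1
  · by_cases hab : b = a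
    · simp [hab] at h
    · simp only [hab, if_false] at h
      exact (jet_mono_res hc hNi (fun h' => hab (Subtype.ext h')) h).2
  · rw [jet_Sf_comp v hs, ← Finset.add_sum_erase _ _ (Finset.mem_univ a)]
    congr 1
    · rw [jet_mono_diag hNi]
      unfold tht
      ring
    · rw [← Finset.add_sum_erase (Finset.univ) (fun b => (if b = a then 0 else
        jet (fun q => mono b.1.1 b.1.2 (Ni q)) a.1.1 a.1.2) * v b) (Finset.mem_univ a)]
      simp only [if_true, zero_mul, zero_add]
      refine Finset.sum_congr rfl fun b hb => ?_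
      rw [if_neg (Finset.ne_of_mem_erase hb)]
      ring

/-- **(R2)**, monomials: if `Ni` is linear near `0`, jets of lower order do not contribute -/
lemma jet_mono_lin {L : E2 →L[ℝ] E2} {Ni : E2 → E2} (hNi : ∀ᶠ q in 𝓝 (0 : E2), Ni q = L q)
    {b a : ℕ × ℕ} (hab : b.1 + b.2 < a.1 + a.2) :
    jet (fun q => mono b.1 b.2 (Ni q)) a.1 a.2 = 0 := by
  have h1 : (fun q => mono b.1 b.2 (Ni q)) =ᶠ[𝓝 0] fun q => mono b.1 b.2 (L q) := by
    filter_upwards [hNi] with q hq
    rw [hq]
  rw [jet_congr h1]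
  -- homogeneity
  set f : E2 → ℝ := fun q => mono b.1 b.2 (L q) with hf
  have hfs : ContDiff ℝ ∞ f := (mono_smooth _ _).comp L.contDiff
  -- iterated derivatives lower the degree
  have hom : ∀ (n : ℕ) (g : E2 → ℝ), ContDiff ℝ ∞ g → (∀ (s : ℝ) q, g (s • q) = s ^ n * g q) →
      ∀ i j, n < i + j → jet g i j = 0 := by
    intro n
    induction n with
    | zero =>
      intro g hg hh i j hij
      have h2 : g = fun _ => g 0 := by
        ext q
        have h3 := hh 0 q
        simp only [zero_smul, pow_zero, one_mul] at h3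
        exact h3.symm
      have h4 : jet g i j = jet (fun q => g 0 * mono 0 0 q) i j := by
        refine jet_congr (Eventually.of_forall fun q => ?_) i j
        rw [h2]
        simp [mono]
      rw [h4, jet_const_mul (mono_smooth 0 0).contDiffAt, jet_mono, if_neg (by omega), mul_zero]
    | succ n ih =>
      intro g hg hh i j hij
      have hder : ∀ (s : ℝ) (q v : E2), s ≠ 0 → fderiv ℝ g (s • q) v = s ^ n * fderiv ℝ g q v := by
        intro s q v hs
        have h3 : HasFDerivAt (fun q : E2 => g (s • q))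
            ((fderiv ℝ g (s • q)).comp (s • ContinuousLinearMap.id ℝ E2)) q :=
          HasFDerivAt.comp (g := g) q (hg.differentiable (by simp) _).hasFDerivAt
            ((hasFDerivAt_id q).const_smul s)
        have h4 : HasFDerivAt (fun q : E2 => g (s • q)) (s ^ (n + 1) • fderiv ℝ g q) q := by
          have h5 : (fun q : E2 => g (s • q)) = fun q => s ^ (n + 1) * g q := funext fun q => hh s q
          rw [h5]
          exact (hg.differentiable (by simp) q).hasFDerivAt.const_mul _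
        have h6 := congrArg (fun T : E2 →L[ℝ] ℝ => T v) (h3.unique h4)
        simp only [ContinuousLinearMap.comp_apply, smul_apply,
          ContinuousLinearMap.id_apply, map_smul, smul_eq_mul] at h6
        have h7 : s * fderiv ℝ g (s • q) v = s * (s ^ n * fderiv ℝ g q v) := by
          rw [h6]
          ring
        exact mul_left_cancel₀ hs h7
      have hder0 : ∀ (s : ℝ) (q v : E2), fderiv ℝ g (s • q) v = s ^ n * fderiv ℝ g q v := by
        intro s q v
        by_cases hs : s = 0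
        · -- by continuity
          have c1 : Continuous fun s : ℝ => fderiv ℝ g (s • q) v := by
            have := (hg.continuous_fderiv (by simp))
            fun_prop
          have c2 : Continuous fun s : ℝ => s ^ n * fderiv ℝ g q v := by fun_prop
          have h5 : EqOn (fun s : ℝ => fderiv ℝ g (s • q) v) (fun s : ℝ => s ^ n * fderiv ℝ g q v)
              {0}ᶜ := fun s hs => hder s q v hs
          have h6 := Continuous.ext_on (dense_compl_singleton (0 : ℝ)) c1 c2 h5
          exact congrFun h6 s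
        · exact hder s q v hs
      rcases Nat.eq_zero_or_pos i with rfl | hi
      · obtain ⟨j, rfl⟩ : ∃ j', j = j' + 1 := ⟨j - 1, by omega⟩
        rw [← jet_D2]
        exact ih (D2 g) (by
          have := (hg.fderiv_right (m := ∞) (by norm_cast))
          exact this.clm_apply contDiff_const) (fun s q => hder0 s q e2) 0 j (by omega)
      · obtain ⟨i, rfl⟩ : ∃ i', i = i' + 1 := ⟨i - 1, by omega⟩
        rw [← jet_D1 hg.contDiffAt]
        exact ih (D1 g) (by
          have := (hg.fderiv_right (m := ∞) (by norm_cast))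
          exact this.clm_apply contDiff_const) (fun s q => hder0 s q e1) i j (by omega)
  refine hom (b.1 + b.2) f hfs (fun s q => ?_) a.1 a.2 hab
  simp only [hf, map_smul]
  unfold mono
  simp only [PiLp.smul_apply, smul_eq_mul, mul_pow, pow_add]
  ring

/-- **(R2)** -/
theorem res_lin {K : ℕ} {L : E2 →L[ℝ] E2} {Ni : E2 → E2} (hNi : ∀ᶠ q in 𝓝 (0 : E2), Ni q = L q)
    {a : Ix K} {v : Ix K → ℝ} (hv : ∀ b : Ix K, a.ord ≤ b.ord → v b = 0) :
    jet (fun q => Sf v (Ni q)) a.1.1 a.1.2 = 0 := by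
  have hs : ContDiffAt ℝ ∞ Ni 0 := L.contDiff.contDiffAt.congr_of_eventuallyEq hNi
  rw [jet_Sf_comp v hs]
  refine Finset.sum_eq_zero fun b _ => ?_
  by_cases hb : a.ord ≤ b.ord
  · rw [hv b hb, zero_mul]
  · rw [jet_mono_lin hNi (not_le.1 hb), mul_zero]

lemma low_eq_zero {K m : ℕ} (u : Ix K → ℝ) {b : Ix K} (hb : m ≤ b.ord) : low m u b = 0 := by
  unfold low
  rw [if_neg (not_lt.2 hb)]

lemma low_eq {K m : ℕ} (u : Ix K → ℝ) {b : Ix K} (hb : b.ord < m) : low m u b = u b := by
  unfold low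
  rw [if_pos hb]

/-- the truncation as a linear map -/
def lowL (K m : ℕ) : (Ix K → ℝ) →L[ℝ] (Ix K → ℝ) :=
  ContinuousLinearMap.pi fun b => if b.ord < m then ContinuousLinearMap.proj b else 0

lemma lowL_apply {K m : ℕ} (u : Ix K → ℝ) : lowL K m u = low m u := by
  ext b
  unfold lowL low
  simp only [ContinuousLinearMap.coe_pi']
  split_ifs <;> simp

/-- the functional `∑ b, n b * u b` -/
def dotL {K : ℕ} (n : Ix K → ℝ) : (Ix K → ℝ) →L[ℝ] ℝ :=
  ∑ b, n b • (ContinuousLinearMap.proj b : (Ix K → ℝ) →L[ℝ] ℝ)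

lemma dotL_apply {K : ℕ} (n u : Ix K → ℝ) : dotL n u = ∑ b, n b * u b := by
  simp [dotL]

/-- **(R3)** the part of the action on the jets of order `a` which depends on lower jets: the
linear part `nl`, and a smooth remainder of order `2` -/
theorem tpart {K : ℕ} {J : Ix K → (Ix K → ℝ) → ℝ}
    (hs : ∀ a, ∀ᶠ u in 𝓝 (0 : Ix K → ℝ), ContDiffAt ℝ ∞ (J a) u) (h0 : ∀ a, J a 0 = 0)
    {nl : Ix K → Ix K → ℝ} (hnl : ∀ a b, nl a b ≠ 0 → b.ord < a.ord)
    (hlin : ∀ (a : Ix K) (v : Ix K → ℝ), (∀ b : Ix K, a.ord ≤ b.ord → v b = 0) →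
      fderiv ℝ (J a) 0 v = ∑ b, nl a b * v b) :
    ∃ q : Ix K → (Ix K → ℝ) → ℝ, ∃ r > (0 : ℝ), (∀ a : Ix K, a.ord = 1 → q a = 0) ∧
      (∀ a : Ix K, DependsOn (q a) {b | b.ord < a.ord}) ∧
      (∀ a, ContDiffOn ℝ ∞ (q a) (ball 0 r)) ∧
      (∀ a, ∃ C : ℝ, ∀ u ∈ ball (0 : Ix K → ℝ) r, |q a u| ≤ C * ‖u‖ ^ 2) ∧
      ∀ a : Ix K, 2 ≤ a.ord → ∀ u, J a (low a.ord u) = ∑ b, nl a b * u b + q a u := by
  classical
  set q : Ix K → (Ix K → ℝ) → ℝ := fun a u =>
    if a.ord = 1 then 0 else J a (low a.ord u) - dotL (nl a) u with hq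
  have hqs : ∀ a, ∀ᶠ u in 𝓝 (0 : Ix K → ℝ), ContDiffAt ℝ ∞ (q a) u := by
    intro a
    by_cases ha : a.ord = 1
    · refine Eventually.of_forall fun u => ?_
      have : q a = fun _ => 0 := by
        ext u
        simp [hq, ha]
      rw [this]
      exact contDiffAt_const
    · filter_upwards [(low_tendsto (K := K) a.ord).eventually (hs a)] with u hu
      have : q a = fun u => J a (low a.ord u) - dotL (nl a) u := by
        ext u
        simp [hq, ha]
      rw [this]
      exact (ContDiffAt.comp (g := J a) u hu (low_smooth a.ord).contDiffAt).sub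
        (dotL (nl a)).contDiff.contDiffAt
  have hq0 : ∀ a, q a 0 = 0 := by
    intro a
    by_cases ha : a.ord = 1
    · simp [hq, ha]
    · simp [hq, ha, low_zero, h0]
  have hqd : ∀ a, fderiv ℝ (q a) 0 = 0 := by
    intro a
    by_cases ha : a.ord = 1
    · have : q a = fun _ => 0 := by
        ext u
        simp [hq, ha]
      rw [this]
      simp
    · have e : q a = fun u => J a (lowL K a.ord u) - dotL (nl a) u := by
        ext u
        simp [hq, ha, lowL_apply]
      have h1 : HasFDerivAt (J a) (fderiv ℝ (J a) 0) (lowL K a.ord 0) := by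
        rw [map_zero]
        exact ((hs a).self_of_nhds.differentiableAt (by simp)).hasFDerivAt
      have h2 : HasFDerivAt (fun u => J a (lowL K a.ord u) - dotL (nl a) u)
          ((fderiv ℝ (J a) 0).comp (lowL K a.ord) - dotL (nl a)) 0 :=
        (h1.comp (0 : Ix K → ℝ) (lowL K a.ord).hasFDerivAt).sub (dotL (nl a)).hasFDerivAt
      rw [e, h2.fderiv]
      ext v
      simp only [sub_apply, ContinuousLinearMap.comp_apply,
        zero_apply]
      rw [lowL_apply, hlin a (low a.ord v) fun b hb => low_eq_zero v hb, dotL_apply, sub_eq_zero]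
      refine Finset.sum_congr rfl fun b _ => ?_
      by_cases hb : nl a b = 0
      · rw [hb, zero_mul, zero_mul]
      · rw [low_eq v (hnl a b hb)]
  -- a common radius
  have hrad : ∀ a, ∃ r > (0 : ℝ), ContDiffOn ℝ ∞ (q a) (ball 0 r) ∧
      ∃ C : ℝ, ∀ u ∈ ball (0 : Ix K → ℝ) r, |q a u| ≤ C * ‖u‖ ^ 2 := by
    intro a
    obtain ⟨r1, hr1, hb1⟩ := Metric.eventually_nhds_iff_ball.1 (hqs a)
    obtain ⟨C, hC0, r2, hr2, hb2⟩ := C2_est (((hqs a).self_of_nhds).of_le (m := 2) (by norm_cast))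
    refine ⟨min r1 r2, lt_min hr1 hr2, fun u hu => ?_, C, fun u hu => ?_⟩
    · exact (hb1 u (ball_subset_ball (min_le_left _ _) hu)).contDiffWithinAt
    · have h3 := hb2 u (ball_subset_ball (min_le_right _ _) hu) 0 (mem_ball_self hr2)
      rw [hq0, hqd] at h3
      simp only [sub_zero, zero_apply, norm_zero, add_zero] at h3
      rw [Real.norm_eq_abs] at h3
      refine h3.trans (le_of_eq ?_)
      ring
  choose rr hrr hsm hfl using hrad
  obtain ⟨r, hr, hle⟩ : ∃ r > (0 : ℝ), ∀ a, r ≤ rr a := by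
    rcases isEmpty_or_nonempty (Ix K) with hE | hE
    · exact ⟨1, one_pos, fun a => (hE.false a).elim⟩
    · obtain ⟨a, -, ha⟩ := Finset.exists_min_image Finset.univ rr Finset.univ_nonempty
      exact ⟨rr a, hrr a, fun b => ha b (Finset.mem_univ b)⟩
  refine ⟨q, r, hr, fun a ha => ?_, fun a u v huv => ?_, fun a => ?_, fun a => ?_,
    fun a ha u => ?_⟩
  · ext u
    simp [hq, ha]
  · have h1 : low a.ord u = low a.ord v := by
      ext b
      by_cases hb : b.ord < a.ord
      · rw [low_eq u hb, low_eq v hb, huv b hb]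
      · rw [low_eq_zero u (not_lt.1 hb), low_eq_zero v (not_lt.1 hb)]
    have h2 : dotL (nl a) u = dotL (nl a) v := by
      rw [dotL_apply, dotL_apply]
      refine Finset.sum_congr rfl fun b _ => ?_
      by_cases hb : nl a b = 0
      · rw [hb, zero_mul, zero_mul]
      · rw [huv b (hnl a b hb)]
    simp only [hq, h1, h2]
  · exact (hsm a).mono (ball_subset_ball (hle a))
  · obtain ⟨C, hC⟩ := hfl a
    exact ⟨C, fun u hu => hC u (ball_subset_ball (hle a) hu)⟩
  · have ha1 : a.ord ≠ 1 := by omega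
    simp only [hq, ha1, if_false, dotL_apply]
    ring

end H803

end Vale.Agent.P207.N3
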